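import Mathlib

/-!
# Cubic fourfolds

A cubic fourfold is given by its equation, a cubic form `F` in six variables over `ℂ`; points of
projective five-space are given by nonzero vectors of `ℂ^6`.
-/

namespace Vale.Agent.P287.H664

open MvPolynomial

/-- `F` is the equation of a smooth cubic fourfold `X ⊆ ℙ^5`: it is a cubic form, and its six
partial derivatives have no common zero other than the origin. -/
def IsSmoothCubicFourfold (F : MvPolynomial (Fin 6) ℂ) : Prop :=
  F.IsHomogeneous 3 ∧ ∀ x : Fin 6 → ℂ, (∀ i, eval x (pderiv i F) = 0) → x = 0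

/-- The coordinate ring of the affine chart `x_i = 1` of the hypersurface `F = 0` in `ℙ^5`. -/
abbrev ChartRing (F : MvPolynomial (Fin 6) ℂ) (i : Fin 6) : Type :=
  MvPolynomial (Fin 6) ℂ ⧸ Ideal.span {F, X i - 1}

/-- The hypersurface `F = 0` in `ℙ^5` is rational: its function field, computed as the fraction
field of the coordinate ring of any one of the six standard affine charts `x_i = 1`, is
isomorphic over `ℂ` to the field `ℂ(t_1, t_2, t_3, t_4)` of rational functions. -/
def IsRational (F : MvPolynomial (Fin 6) ℂ) : Prop :=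
  ∀ i : Fin 6, IsDomain (ChartRing F i) ∧
    Nonempty (FractionRing (ChartRing F i) ≃ₐ[ℂ] FractionRing (MvPolynomial (Fin 4) ℂ))

/-- `W` is (the linear span of) a plane contained in the hypersurface `F = 0` of `ℙ^5`. -/
def IsPlaneIn (F : MvPolynomial (Fin 6) ℂ) (W : Submodule ℂ (Fin 6 → ℂ)) : Prop :=
  Module.finrank ℂ W = 3 ∧ ∀ x ∈ W, eval x F = 0

/-- `p` is an Eckardt point of the hypersurface `X : F = 0` of `ℙ^5`: a point of `X` such that
the intersection of `X` with its tangent hyperplane `T_p X` is a cone with vertex `p`, i.e. for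
every point `x` of it the whole line joining `p` and `x` is contained in `X`. -/
def IsEckardtPoint (F : MvPolynomial (Fin 6) ℂ) (p : Fin 6 → ℂ) : Prop :=
  p ≠ 0 ∧ eval p F = 0 ∧
    ∀ x : Fin 6 → ℂ, ∑ i, eval p (pderiv i F) * x i = 0 → eval x F = 0 →
      ∀ t : ℂ, eval (x + t • p) F = 0

end Vale.Agent.P287.H664
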