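import Vale.Agent.P287.H664.Line2

/-!
Every cubic surface over `ℂ` contains a line.
-/

set_option linter.unusedSimpArgs false
set_option linter.unusedSectionVars false

namespace Vale.Agent.P287.H664

open Polynomial

/-- `pen` vanishes on the span. -/
def PenLine {A : Type} [CommRing A] [Algebra ℂ A] (φ : Fin 4 → Fin 4 → Fin 4 → ℂ) (t : A)
    (x y : Fin 4 → A) : Prop :=
  pen φ t x x x = 0 ∧ pen φ t x x y = 0 ∧ pen φ t x y y = 0 ∧ pen φ t y y y = 0

theorem PenLine.comb {A : Type} [CommRing A] [Algebra ℂ A] {φ : Fin 4 → Fin 4 → Fin 4 → ℂ}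
    (h : Sym φ) {t : A} {x y : Fin 4 → A} (hp : PenLine φ t x y) (a b c d : A) :
    PenLine φ t (a • x + b • y) (c • x + d • y) := by
  obtain ⟨h1, h2, h3, h4⟩ := hp
  refine ⟨?_, ?_, ?_, ?_⟩ <;>
  · rw [pen_comb h, h1, h2, h3, h4]; ring

/-- The line can be written with two unit coordinates over the valuation ring. -/
theorem normalise {K : Type} [Field K] (B : ValuationSubring K) (x y : Fin 4 → K)
    (hxy : x 0 * y 2 - x 2 * y 0 = 1) :
    ∃ (i j : Fin 4) (a b c d : K),
      (a • x + b • y) i = 1 ∧ (a • x + b • y) j = 0 ∧ (c • x + d • y) i = 0 ∧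
      (c • x + d • y) j = 1 ∧ (∀ k, (a • x + b • y) k ∈ B) ∧ (∀ k, (c • x + d • y) k ∈ B) := by
  let M : Fin 4 × Fin 4 → K := fun p => x p.1 * y p.2 - x p.2 * y p.1
  obtain ⟨⟨i, j⟩, hmax⟩ := Finite.exists_max (fun p => B.valuation (M p))
  have h02 : M (0, 2) = 1 := hxy
  have hne : M (i, j) ≠ 0 := by
    intro h0
    have := hmax (0, 2)
    rw [h02, h0, map_one, map_zero] at this
    exact absurd this (by simp)
  have hmem : ∀ p, M p / M (i, j) ∈ B := by
    intro p
    rw [← B.valuation_le_one_iff, map_div₀]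
    exact div_le_one_of_le₀ (hmax p) zero_le
  refine ⟨i, j, y j / M (i, j), - x j / M (i, j), - y i / M (i, j), x i / M (i, j),
    ?_, ?_, ?_, ?_, ?_, ?_⟩
  · simp only [Pi.add_apply, Pi.smul_apply, smul_eq_mul]
    field_simp
    simp only [M]; ring
  · simp only [Pi.add_apply, Pi.smul_apply, smul_eq_mul]
    field_simp
    ring
  · simp only [Pi.add_apply, Pi.smul_apply, smul_eq_mul]
    field_simp
    ring
  · simp only [Pi.add_apply, Pi.smul_apply, smul_eq_mul]
    field_simp
    simp only [M]; ring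
  · intro k
    have : (y j / M (i, j)) * x k + (- x j / M (i, j)) * y k = M (k, j) / M (i, j) := by
      simp only [M]; ring
    simp only [Pi.add_apply, Pi.smul_apply, smul_eq_mul]
    rw [this]; exact hmem _
  · intro k
    have : (- y i / M (i, j)) * x k + (x i / M (i, j)) * y k = M (i, k) / M (i, j) := by
      simp only [M]; ring
    simp only [Pi.add_apply, Pi.smul_apply, smul_eq_mul]
    rw [this]; exact hmem _

/-- A line over some extension field, in normal form. -/
theorem exists_ext (φ : Fin 4 → Fin 4 → Fin 4 → ℂ) (h : Sym φ) :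
    ∃ (κ : Type) (_ : Field κ) (_ : Algebra ℂ κ) (i j : Fin 4) (x y : Fin 4 → κ),
      x i = 1 ∧ x j = 0 ∧ y i = 0 ∧ y j = 1 ∧
      tri φ x x x = 0 ∧ tri φ x x y = 0 ∧ tri φ x y y = 0 ∧ tri φ y y y = 0 := by
  obtain ⟨K, _, _, ι, hι, u, h0, h1, h2, h3⟩ := exists_field φ h
  -- the valuation ring
  let A : Subring K := ι.toRingHom.range
  let I : Ideal A := Ideal.map ι.toRingHom.rangeRestrict (Ideal.span {X - 1})
  have hI : I ≠ ⊤ := by
    intro hI
    have h1 : (1 : A) ∈ I := by rw [hI]; trivial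
    rw [Ideal.mem_map_iff_of_surjective _ ι.toRingHom.rangeRestrict_surjective] at h1
    obtain ⟨f, hf, hf1⟩ := h1
    have hf2 : f = 1 := by
      apply hι
      rw [map_one]
      exact congrArg Subtype.val hf1
    rw [hf2, Ideal.mem_span_singleton] at hf
    have := Polynomial.eval_dvd (x := (1 : ℂ)) hf
    simp at this
  obtain ⟨B, hAB, hIB⟩ := Ideal.image_subset_nonunits_valuationSubring I hI
  have hmemB : ∀ f : ℂ[X], ι f ∈ B := fun f => hAB ⟨f, rfl⟩
  have hX1 : ι X - 1 ∈ B.nonunits := by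
    apply hIB
    refine ⟨ι.toRingHom.rangeRestrict (X - 1), ?_, ?_⟩
    · exact Ideal.mem_map_of_mem _ (Ideal.subset_span rfl)
    · exact (map_sub ι X 1).trans (by rw [map_one])
  -- normal form
  obtain ⟨i, j, a, b, c, d, hxi, hxj, hyi, hyj, hxB, hyB⟩ := normalise B (xv u) (yv u)
    (by simp [xv, yv])
  have hpen : PenLine φ (ι X) (xv u) (yv u) := ⟨h0, h1, h2, h3⟩
  obtain ⟨p0, p1, p2, p3⟩ := hpen.comb h a b c d
  set x := a • xv u + b • yv u with hx
  set y := c • xv u + d • yv u with hy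
  -- algebra structure
  let toB : ℂ →+* B :=
    { toFun := fun z => ⟨algebraMap ℂ K z, by
        have := hmemB (C z)
        rwa [show ι (C z) = algebraMap ℂ K z from ι.commutes z] at this⟩
      map_one' := Subtype.ext (map_one _)
      map_mul' := fun _ _ => Subtype.ext (map_mul _ _ _)
      map_zero' := Subtype.ext (map_zero _)
      map_add' := fun _ _ => Subtype.ext (map_add _ _ _) }
  let _ : Algebra ℂ B := toB.toAlgebra
  let sub : B →ₐ[ℂ] K := { B.subtype with commutes' := fun z => rfl }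
  have hsub : Function.Injective sub := Subtype.val_injective
  let κ := IsLocalRing.ResidueField B
  let _ : Algebra ℂ κ := ((IsLocalRing.residue B).comp toB).toAlgebra
  let res : B →ₐ[ℂ] κ := { IsLocalRing.residue B with commutes' := fun z => rfl }
  let xb : Fin 4 → B := fun k => ⟨x k, hxB k⟩
  let yb : Fin 4 → B := fun k => ⟨y k, hyB k⟩
  let tb : B := ⟨ι X, hmemB X⟩
  have ht1 : res tb = 1 := by
    have : tb - 1 ∈ IsLocalRing.maximalIdeal B := by
      rw [IsLocalRing.mem_maximalIdeal]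
      have h5 : ((tb - 1 : B) : K) ∈ B.nonunits := hX1
      exact ValuationSubring.coe_mem_nonunits_iff.1 h5
    have h6 : IsLocalRing.residue B (tb - 1) = 0 := (IsLocalRing.residue_eq_zero_iff _).2 this
    rw [map_sub, map_one, sub_eq_zero] at h6
    exact h6
  have key : ∀ v w z : Fin 4 → B, pen φ (ι X) (fun k => (v k : K)) (fun k => (w k : K))
      (fun k => (z k : K)) = 0 →
      tri φ (fun k => res (v k)) (fun k => res (w k)) (fun k => res (z k)) = 0 := by
    intro v w z hvw
    have e1 : sub (pen φ tb v w z) = 0 := by rw [map_pen]; exact hvw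
    have e2 : pen φ tb v w z = 0 := hsub (by rw [e1, map_zero])
    have e3 := congrArg res e2
    rw [map_pen, ht1, map_zero] at e3
    unfold pen at e3
    linear_combination e3
  refine ⟨κ, inferInstance, inferInstance, i, j, fun k => res (xb k), fun k => res (yb k),
    ?_, ?_, ?_, ?_, key xb xb xb p0, key xb xb yb p1, key xb yb yb p2, key yb yb yb p3⟩
  · have : xb i = 1 := Subtype.ext hxi
    show res (xb i) = 1
    rw [this, map_one]
  · have : xb j = 0 := Subtype.ext hxj
    show res (xb j) = 0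
    rw [this, map_zero]
  · have : yb i = 0 := Subtype.ext hyi
    show res (yb i) = 0
    rw [this, map_zero]
  · have : yb j = 1 := Subtype.ext hyj
    show res (yb j) = 1
    rw [this, map_one]

/-- Every cubic surface over `ℂ` contains a line. -/
theorem exists_line_surface (φ : Fin 4 → Fin 4 → Fin 4 → ℂ) (h : Sym φ) :
    ∃ (i j : Fin 4) (x y : Fin 4 → ℂ), x i = 1 ∧ x j = 0 ∧ y i = 0 ∧ y j = 1 ∧
      tri φ x x x = 0 ∧ tri φ x x y = 0 ∧ tri φ x y y = 0 ∧ tri φ y y y = 0 := by
  obtain ⟨κ, _, _, i, j, x, y, hxi, hxj, hyi, hyj, h0, h1, h2, h3⟩ := exists_ext φ h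
  let D := MvPolynomial (Fin 4 ⊕ Fin 4) ℂ
  let x' : Fin 4 → MvPolynomial (Fin 4 ⊕ Fin 4) ℂ := fun k => MvPolynomial.X (Sum.inl k)
  let y' : Fin 4 → MvPolynomial (Fin 4 ⊕ Fin 4) ℂ := fun k => MvPolynomial.X (Sum.inr k)
  let J : Ideal (MvPolynomial (Fin 4 ⊕ Fin 4) ℂ) := Ideal.span
    {x' i - 1, x' j, y' i, y' j - 1, tri φ x' x' x', tri φ x' x' y', tri φ x' y' y',
      tri φ y' y' y'}
  let ev : MvPolynomial (Fin 4 ⊕ Fin 4) ℂ →ₐ[ℂ] κ := MvPolynomial.aeval (Sum.elim x y)
  have evx : (fun k => ev (x' k)) = x := by funext k; simp [ev, x']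
  have evy : (fun k => ev (y' k)) = y := by funext k; simp [ev, y']
  have hJ : J ≤ RingHom.ker ev.toRingHom := by
    rw [Ideal.span_le]
    rintro f hf
    simp only [Set.mem_insert_iff, Set.mem_singleton_iff] at hf
    show ev f = 0
    rcases hf with rfl | rfl | rfl | rfl | rfl | rfl | rfl | rfl
    · rw [map_sub, map_one, congrFun evx i, hxi, sub_self]
    · rw [congrFun evx j, hxj]
    · rw [congrFun evy i, hyi]
    · rw [map_sub, map_one, congrFun evy j, hyj, sub_self]
    · rw [map_tri, evx, h0]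
    · rw [map_tri, evx, evy, h1]
    · rw [map_tri, evx, evy, h2]
    · rw [map_tri, evy, h3]
  have hJ1 : J ≠ ⊤ := by
    intro hJ1
    have : (1 : MvPolynomial (Fin 4 ⊕ Fin 4) ℂ) ∈ J := by rw [hJ1]; trivial
    have := hJ this
    have h7 : ev 1 = 0 := this
    rw [map_one] at h7
    exact one_ne_zero h7
  have hz : (MvPolynomial.zeroLocus ℂ J).Nonempty := by
    by_contra hne
    rw [Set.not_nonempty_iff_eq_empty] at hne
    have := MvPolynomial.vanishingIdeal_zeroLocus_eq_radical (K := ℂ) J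
    rw [hne, MvPolynomial.vanishingIdeal_empty] at this
    exact hJ1 (Ideal.radical_eq_top.1 this.symm)
  obtain ⟨z, hz⟩ := hz
  rw [MvPolynomial.mem_zeroLocus_iff] at hz
  let ez : MvPolynomial (Fin 4 ⊕ Fin 4) ℂ →ₐ[ℂ] ℂ := MvPolynomial.aeval z
  have hz' : ∀ f ∈ J, ez f = 0 := hz
  have ezx : (fun k => ez (x' k)) = fun k => z (Sum.inl k) := by funext k; simp [ez, x']
  have ezy : (fun k => ez (y' k)) = fun k => z (Sum.inr k) := by funext k; simp [ez, y']
  refine ⟨i, j, fun k => z (Sum.inl k), fun k => z (Sum.inr k), ?_, ?_, ?_, ?_, ?_, ?_, ?_, ?_⟩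
  · have := hz' (x' i - 1) (Ideal.subset_span (by simp))
    rw [map_sub, map_one, congrFun ezx i] at this
    exact sub_eq_zero.1 this
  · have := hz' (x' j) (Ideal.subset_span (by simp))
    rwa [congrFun ezx j] at this
  · have := hz' (y' i) (Ideal.subset_span (by simp))
    rwa [congrFun ezy i] at this
  · have := hz' (y' j - 1) (Ideal.subset_span (by simp))
    rw [map_sub, map_one, congrFun ezy j] at this
    exact sub_eq_zero.1 this
  · have := hz' (tri φ x' x' x') (Ideal.subset_span (by simp))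
    rwa [map_tri, ezx] at this
  · have := hz' (tri φ x' x' y') (Ideal.subset_span (by simp))
    rwa [map_tri, ezx, ezy] at this
  · have := hz' (tri φ x' y' y') (Ideal.subset_span (by simp))
    rwa [map_tri, ezx, ezy] at this
  · have := hz' (tri φ y' y' y') (Ideal.subset_span (by simp))
    rwa [map_tri, ezy] at this

end Vale.Agent.P287.H664
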