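import Vale.Agent.P287.H664.Planes
import Vale.Agent.P287.H664.Line3

/-!
Eckardt points of smooth cubic fourfolds and rationality.
-/

set_option linter.unusedSimpArgs false
set_option linter.unusedSectionVars false

namespace Vale.Agent.P287.H664

open MvPolynomial

namespace STri

section gen

variable {V : Type} [AddCommGroup V] [Module ℂ V] (Φ : STri V)

/-- Restriction to a subspace. -/
def restr (W : Submodule ℂ V) : STri W where
  f x y z := Φ.f x y z
  add _ _ _ _ := Φ.add _ _ _ _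
  smul _ _ _ _ := Φ.smul _ _ _ _
  c12 _ _ _ := Φ.c12 _ _ _
  c23 _ _ _ := Φ.c23 _ _ _

/-- Eckardt points in terms of the trilinear form. -/
def Eck (p : V) : Prop :=
  p ≠ 0 ∧ Φ.f p p p = 0 ∧ ∀ v v', Φ.f p p v = 0 → Φ.f p p v' = 0 → Φ.f p v v' = 0

/-- The functional `x ↦ Φ(p, p, x)`. -/
def ppL (p : V) : V →ₗ[ℂ] ℂ where
  toFun x := Φ.f p p x
  map_add' _ _ := Φ.add3 _ _ _ _
  map_smul' _ _ := Φ.smul3 _ _ _ _

/-- The cone over the cubic surface at an Eckardt point. -/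
structure Split (p : V) where
  W : Submodule ℂ V
  e : V
  M : V →ₗ[ℂ] ℂ
  hWL : ∀ w ∈ W, Φ.f p p w = 0
  hWM : ∀ w ∈ W, M w = 0
  hMp : M p = 1
  hT : ∀ x, Φ.f p p x = 0 → x - M x • p ∈ W
  he : ∀ x, ∃ c : ℂ, Φ.f p p (x - c • e) = 0
  rank : Module.finrank ℂ W = 4

variable {Φ}

theorem Eck.xxp {p : V} (hp : Φ.Eck p) {v : V} (hv : Φ.f p p v = 0) : Φ.f p v v = 0 :=
  hp.2.2 v v hv hv

theorem Eck.smooth {p : V} (hp : Φ.Eck p) (hS : Φ.Smooth) (S : Φ.Split p) :
    (Φ.restr S.W).Smooth := by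
  intro v hv
  by_contra hcon
  push Not at hcon
  have hvW : ∀ w ∈ S.W, Φ.f v v w = 0 := fun w hw => hcon ⟨w, hw⟩
  have hv0 : (v : V) ≠ 0 := fun h => hv (Subtype.ext h)
  have hL := S.hWL v v.2
  obtain ⟨s, t, hst, hq⟩ := quad_zero (Φ.f v v S.e) (2 * Φ.f p v S.e) (Φ.f p p S.e)
  have hx : s • (v : V) + t • p ≠ 0 := by
    intro h0
    have h1 : S.M (s • (v : V) + t • p) = 0 := by rw [h0, map_zero]
    rw [map_add, map_smul, map_smul, S.hWM v v.2, S.hMp, smul_zero, zero_add, smul_eq_mul,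
      mul_one] at h1
    rw [h1, zero_smul, add_zero] at h0
    rcases hst with h | h
    · exact (smul_ne_zero h hv0) h0
    · exact h h1
  obtain ⟨y, hy⟩ := hS _ hx
  apply hy
  obtain ⟨c, hc⟩ := S.he y
  have hw := S.hT _ hc
  have hy' : y = (y - c • S.e - S.M (y - c • S.e) • p) + S.M (y - c • S.e) • p + c • S.e := by
    abel
  generalize y - c • S.e - S.M (y - c • S.e) • p = w at hw hy'
  generalize S.M (y - c • S.e) = m at hy'
  have e1 := hvW w hw
  have e2 := S.hWL w hw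
  have e3 := hp.2.2 v w hL e2
  have e4 := hp.xxp hL
  have e5 := hp.2.1
  rw [hy']
  simp only [Φ.add, Φ.add2, Φ.add3, Φ.smul, Φ.smul2, Φ.smul3, Φ.t2 p (v : V) w,
    Φ.t2 p (v : V) S.e, Φ.q1 p (v : V), Φ.q2 p (v : V), Φ.q3 p (v : V), Φ.q4 p (v : V),
    e1, e2, e3, e4, e5, hL]
  linear_combination c * hq

/-- The plane spanned by an Eckardt point and a line of the cubic surface. -/
def conePlane (p a b : V) : Submodule ℂ V := Submodule.span ℂ {p, a, b}

theorem mem_conePlane {p a b x : V} :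
    x ∈ conePlane p a b ↔ ∃ α β γ : ℂ, x = α • p + (β • a + γ • b) := by
  rw [conePlane, Submodule.mem_span_insert]
  constructor
  · rintro ⟨α, z, hz, rfl⟩
    obtain ⟨β, γ, rfl⟩ := Submodule.mem_span_pair.1 hz
    exact ⟨α, β, γ, rfl⟩
  · rintro ⟨α, β, γ, rfl⟩
    exact ⟨α, _, Submodule.mem_span_pair.2 ⟨β, γ, rfl⟩, rfl⟩

theorem Eck.conePlane_iso {p : V} (hp : Φ.Eck p) (S : Φ.Split p) {a b : S.W}
    (h : (Φ.restr S.W).Iso a b) {x : V} (hx : x ∈ conePlane p (a : V) b) : Φ.f x x x = 0 := by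
  obtain ⟨α, β, γ, rfl⟩ := mem_conePlane.1 hx
  obtain ⟨h1, h2, h3, h4⟩ := h
  have h1' : Φ.f a a a = 0 := h1
  have h2' : Φ.f a a b = 0 := h2
  have h3' : Φ.f a b b = 0 := h3
  have h4' : Φ.f b b b = 0 := h4
  have e1 := S.hWL a a.2
  have e2 := S.hWL b b.2
  have e3 := hp.2.2 _ _ e1 e2
  have e4 := hp.xxp e1
  have e5 := hp.xxp e2
  have e6 := hp.2.1
  simp only [Φ.add, Φ.add2, Φ.add3, Φ.smul, Φ.smul2, Φ.smul3, Φ.q1 (a : V) b, Φ.q2 (a : V) b,
    Φ.q3 (a : V) b, Φ.q4 (a : V) b, Φ.q1 p (a : V), Φ.q2 p (a : V), Φ.q3 p (a : V),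
    Φ.q4 p (a : V), Φ.q1 p (b : V), Φ.q2 p (b : V), Φ.q3 p (b : V),
    Φ.q4 p (b : V), Φ.t1 p (a : V) b, Φ.t2 p (a : V) b, Φ.t3 p (a : V) b, Φ.t4 p (a : V) b,
    Φ.t5 p (a : V) b, h1', h2', h3', h4', e1, e2, e3, e4, e5, e6]
  ring

theorem conePlane_finrank {p : V} (S : Φ.Split p) {a b : S.W}
    (h : ∀ α β : ℂ, α • a + β • b = 0 → α = 0 ∧ β = 0) :
    Module.finrank ℂ (conePlane p (a : V) b) = 3 := by
  have hli : LinearIndependent ℂ ![p, (a : V), b] := by
    rw [Fintype.linearIndependent_iff]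
    intro g hg
    simp only [Fin.sum_univ_three, Matrix.cons_val_zero, Matrix.cons_val_one,
      Matrix.cons_val] at hg
    have h1 : S.M (g 0 • p + g 1 • (a : V) + g 2 • (b : V)) = 0 := by rw [hg, map_zero]
    rw [map_add, map_add, map_smul, map_smul, map_smul, S.hWM a a.2, S.hWM b b.2, S.hMp,
      smul_zero, smul_zero, add_zero, add_zero, smul_eq_mul, mul_one] at h1
    rw [h1, zero_smul, zero_add] at hg
    obtain ⟨h2, h3⟩ := h (g 1) (g 2) (Subtype.ext (by simpa using hg))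
    intro i
    fin_cases i
    · exact h1
    · exact h2
    · exact h3
  have h1 := finrank_span_eq_card hli
  have h2 : Set.range ![p, (a : V), b] = {p, (a : V), (b : V)} := by
    ext x
    simp only [Matrix.range_cons, Matrix.range_empty, Set.union_empty, Set.singleton_union,
      Set.mem_insert_iff, Set.mem_singleton_iff]
  rw [h2] at h1
  rw [conePlane]
  simpa using h1

theorem ind4_pair {a b c d : V} (h : Ind4 a b c d) (α β : ℂ) (h0 : α • c + β • d = 0) :
    α = 0 ∧ β = 0 := by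
  have := h 0 0 α β (by rw [zero_smul, zero_smul, zero_add, zero_add, h0])
  exact ⟨this.2.2.1, this.2.2.2⟩

theorem ind4_fpair {a b c d : V} (h : Ind4 a b c d) (α β : ℂ) (h0 : α • a + β • b = 0) :
    α = 0 ∧ β = 0 := by
  have := h α β 0 0 (by rw [zero_smul, zero_smul, add_zero, add_zero, h0])
  exact ⟨this.1, this.2.1⟩

/-- Extending a pair of independent vectors to a basis. -/
theorem exists_ind4 (hV : Module.finrank ℂ V = 4) {a b : V}
    (h : ∀ α β : ℂ, α • a + β • b = 0 → α = 0 ∧ β = 0) : ∃ c d, Ind4 a b c d := by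
  have : FiniteDimensional ℂ V := Module.finite_of_finrank_pos (by omega)
  have hli : LinearIndependent ℂ ![a, b] := by
    rw [LinearIndependent.pair_iff]
    exact h
  have hr : Module.finrank ℂ (Submodule.span ℂ (Set.range ![a, b])) = 2 := by
    have := finrank_span_eq_card hli
    simpa using this
  obtain ⟨C, hC⟩ := Submodule.exists_isCompl (Submodule.span ℂ (Set.range ![a, b]))
  have hC2 : Module.finrank ℂ C = 2 := by
    have := Submodule.finrank_add_eq_of_isCompl hC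
    omega
  let bC := Module.finBasisOfFinrankEq ℂ C hC2
  refine ⟨bC 0, bC 1, ?_⟩
  intro α β γ δ h0
  have h1 : α • a + β • b ∈ Submodule.span ℂ (Set.range ![a, b]) := by
    apply Submodule.add_mem
    · exact Submodule.smul_mem _ _ (Submodule.subset_span ⟨0, rfl⟩)
    · exact Submodule.smul_mem _ _ (Submodule.subset_span ⟨1, rfl⟩)
  have h2 : γ • (bC 0 : V) + δ • (bC 1 : V) ∈ C :=
    C.add_mem (C.smul_mem _ (bC 0).2) (C.smul_mem _ (bC 1).2)
  have h3 : α • a + β • b = -(γ • (bC 0 : V) + δ • (bC 1 : V)) := by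
    rw [eq_neg_iff_add_eq_zero, ← h0]; abel
  have h4 : α • a + β • b = 0 := by
    have : α • a + β • b ∈ Submodule.span ℂ (Set.range ![a, b]) ⊓ C :=
      ⟨h1, by rw [h3]; exact C.neg_mem h2⟩
    rw [hC.inf_eq_bot] at this
    exact (Submodule.mem_bot ℂ).1 this
  obtain ⟨hα, hβ⟩ := h α β h4
  rw [h4] at h3
  have h5 : γ • bC 0 + δ • bC 1 = 0 := by
    apply Subtype.ext
    have := neg_eq_zero.1 h3.symm
    simpa using this
  have hli2 := bC.linearIndependent
  rw [Fintype.linearIndependent_iff] at hli2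
  have h6 := hli2 ![γ, δ] (by simpa [Fin.sum_univ_two] using h5)
  exact ⟨hα, hβ, by simpa using h6 0, by simpa using h6 1⟩

/-- Given a plane off an Eckardt point, there is a plane through the Eckardt point disjoint from
it. -/
theorem Eck.exists_disjoint [FiniteDimensional ℂ V] {p : V} (hp : Φ.Eck p) (hS : Φ.Smooth)
    (S : Φ.Split p) {P : Submodule ℂ V} (hP : Module.finrank ℂ P = 3)
    (hPi : ∀ x ∈ P, Φ.f x x x = 0) (hpP : p ∉ P) :
    ∃ Q : Submodule ℂ V, Module.finrank ℂ Q = 3 ∧ (∀ x ∈ Q, Φ.f x x x = 0) ∧ P ⊓ Q = ⊥ := by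
  have hSW := hp.smooth hS S
  -- `P` meets the tangent hyperplane in a line at least
  have hPT : 2 ≤ Module.finrank ℂ (P ⊓ LinearMap.ker (Φ.ppL p) : Submodule ℂ V) := by
    have h1 := Submodule.finrank_sup_add_finrank_inf_eq P (LinearMap.ker (Φ.ppL p))
    have h2 := LinearMap.finrank_range_add_finrank_ker (Φ.ppL p)
    have h3 : Module.finrank ℂ (LinearMap.range (Φ.ppL p)) ≤ 1 := by
      have := Submodule.finrank_le (LinearMap.range (Φ.ppL p))
      simpa using this
    have h4 := Submodule.finrank_le (P ⊔ LinearMap.ker (Φ.ppL p))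
    omega
  obtain ⟨x₁, x₂, hx₁, hx₂, hind⟩ : ∃ x₁ x₂ : V, x₁ ∈ P ⊓ LinearMap.ker (Φ.ppL p) ∧
      x₂ ∈ P ⊓ LinearMap.ker (Φ.ppL p) ∧
      ∀ α β : ℂ, α • x₁ + β • x₂ = 0 → α = 0 ∧ β = 0 := by
    obtain ⟨f, hf⟩ := exists_linearIndependent_of_le_finrank hPT
    refine ⟨f 0, f 1, (f 0).2, (f 1).2, ?_⟩
    intro α β h0
    rw [Fintype.linearIndependent_iff] at hf
    have := hf ![α, β] (by
      apply Subtype.ext
      simpa [Fin.sum_univ_two] using h0)
    exact ⟨by simpa using this 0, by simpa using this 1⟩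
  have hx₁L : Φ.f p p x₁ = 0 := hx₁.2
  have hx₂L : Φ.f p p x₂ = 0 := hx₂.2
  let r₁ : S.W := ⟨x₁ - S.M x₁ • p, S.hT x₁ hx₁L⟩
  let r₂ : S.W := ⟨x₂ - S.M x₂ • p, S.hT x₂ hx₂L⟩
  -- the image of `P ∩ T` in `W`
  let R : Submodule ℂ S.W := (P ⊔ Submodule.span ℂ {p}).comap S.W.subtype
  have hR : ∀ w : S.W, w ∈ R ↔ ∃ x ∈ P, ∃ t : ℂ, (w : V) = x + t • p := by
    intro w
    simp only [R, Submodule.mem_comap, Submodule.mem_sup, Submodule.mem_span_singleton,
      Submodule.subtype_apply]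
    constructor
    · rintro ⟨x, hx, _, ⟨t, rfl⟩, h⟩
      exact ⟨x, hx, t, h.symm⟩
    · rintro ⟨x, hx, t, h⟩
      exact ⟨x, hx, _, ⟨t, rfl⟩, h.symm⟩
  have hRiso : ∀ w ∈ R, (Φ.restr S.W).f w w w = 0 := by
    intro w hw
    obtain ⟨x, hx, t, h⟩ := (hR w).1 hw
    have hw0 := S.hWL w w.2
    have e5 := hp.2.1
    have hxL : Φ.f p p x = 0 := by
      rw [h, Φ.add3, Φ.smul3, e5] at hw0
      simpa using hw0
    have e4 := hp.xxp hxL
    have e3 := hPi x hx
    show Φ.f w w w = 0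
    rw [h]
    simp only [Φ.add, Φ.add2, Φ.add3, Φ.smul, Φ.smul2, Φ.smul3, Φ.q1 p x, Φ.q2 p x, Φ.q3 p x,
      Φ.q4 p x, e3, e4, e5, hxL]
    ring
  have hr₁ : r₁ ∈ R := (hR r₁).2 ⟨x₁, hx₁.1, -S.M x₁, by
    show x₁ - S.M x₁ • p = _
    rw [neg_smul, sub_eq_add_neg]⟩
  have hr₂ : r₂ ∈ R := (hR r₂).2 ⟨x₂, hx₂.1, -S.M x₂, by
    show x₂ - S.M x₂ • p = _
    rw [neg_smul, sub_eq_add_neg]⟩
  have hrind : ∀ α β : ℂ, α • r₁ + β • r₂ = 0 → α = 0 ∧ β = 0 := by
    intro α β h0
    have h1 : α • (x₁ - S.M x₁ • p) + β • (x₂ - S.M x₂ • p) = 0 := by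
      have := congrArg Subtype.val h0
      simpa [r₁, r₂] using this
    have h2 : α • x₁ + β • x₂ = (α * S.M x₁ + β * S.M x₂) • p := by
      rw [← sub_eq_zero, ← h1]
      module
    have h3 : α * S.M x₁ + β * S.M x₂ = 0 := by
      by_contra hne
      apply hpP
      have : p = (α * S.M x₁ + β * S.M x₂)⁻¹ • (α • x₁ + β • x₂) := by
        rw [h2, smul_smul, inv_mul_cancel₀ hne, one_smul]
      rw [this]
      exact P.smul_mem _ (P.add_mem (P.smul_mem _ hx₁.1) (P.smul_mem _ hx₂.1))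
    rw [h3, zero_smul] at h2
    exact hind α β h2
  have hrIso : (Φ.restr S.W).Iso r₁ r₂ :=
    ⟨hRiso _ hr₁, (Φ.restr S.W).polar2 hRiso hr₁ hr₂,
      (Φ.restr S.W).polar3 hRiso hr₁ hr₂ hr₂, hRiso _ hr₂⟩
  obtain ⟨f₀, f₁, hI⟩ := exists_ind4 S.rank hrind
  obtain ⟨u, v, huv, hI2⟩ := (Φ.restr S.W).exists_skew S.rank hSW hI hrIso
  refine ⟨conePlane p u v, conePlane_finrank S (ind4_pair hI2),
    fun x hx => hp.conePlane_iso S huv hx, ?_⟩
  rw [eq_bot_iff]
  rintro x ⟨hxP, hxQ⟩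
  rw [Submodule.mem_bot]
  obtain ⟨α, β, γ, rfl⟩ := mem_conePlane.1 hxQ
  by_cases hβγ : β = 0 ∧ γ = 0
  · obtain ⟨rfl, rfl⟩ := hβγ
    simp only [zero_smul, add_zero] at hxP ⊢
    by_cases hα : α = 0
    · rw [hα, zero_smul]
    · exfalso
      apply hpP
      have : p = α⁻¹ • (α • p) := by rw [smul_smul, inv_mul_cancel₀ hα, one_smul]
      rw [this]
      exact P.smul_mem _ hxP
  · exfalso
    let r₃ : S.W := β • u + γ • v
    have hr₃ : r₃ ∈ R := (hR r₃).2 ⟨_, hxP, -α, by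
      show (β • u + γ • v : S.W).1 = _
      rw [Submodule.coe_add, Submodule.coe_smul, Submodule.coe_smul]
      module⟩
    have hspan : ∃ e : S.W, ∀ y : S.W, ∃ w ∈ R, ∃ c : ℂ, y = w + c • e := by
      by_cases hβ : β = 0
      · have hγ : γ ≠ 0 := fun h => hβγ ⟨hβ, h⟩
        refine ⟨u, fun y => ?_⟩
        obtain ⟨a, b, c, d, rfl⟩ := hI2.span S.rank y
        refine ⟨a • r₁ + b • r₂ + (d / γ) • r₃, ?_, c, ?_⟩
        · exact R.add_mem (R.add_mem (R.smul_mem _ hr₁) (R.smul_mem _ hr₂)) (R.smul_mem _ hr₃)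
        · show _ = a • r₁ + b • r₂ + (d / γ) • (β • u + γ • v) + c • u
          rw [hβ, zero_smul, zero_add, smul_smul, div_mul_cancel₀ _ hγ]
          abel
      · refine ⟨v, fun y => ?_⟩
        obtain ⟨a, b, c, d, rfl⟩ := hI2.span S.rank y
        refine ⟨a • r₁ + b • r₂ + (c / β) • r₃, ?_, d - c / β * γ, ?_⟩
        · exact R.add_mem (R.add_mem (R.smul_mem _ hr₁) (R.smul_mem _ hr₂)) (R.smul_mem _ hr₃)
        · show _ = a • r₁ + b • r₂ + (c / β) • (β • u + γ • v) + (d - c / β * γ) • v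
          rw [smul_add, smul_smul, smul_smul, div_mul_cancel₀ _ hβ, sub_smul]
          abel
    obtain ⟨e, he⟩ := hspan
    exact (Φ.restr S.W).no_hyperplane hSW hRiso he hr₁ hr₂ hrind

theorem f_sum {ι : Type} [Fintype ι] (x y z : ι → ℂ) (b : ι → V) :
    Φ.f (∑ i, x i • b i) (∑ i, y i • b i) (∑ i, z i • b i) =
      tri (fun i j k => Φ.f (b i) (b j) (b k)) x y z := by
  have h1 : ∀ (s : Finset ι) (u v : V), Φ.f (∑ i ∈ s, x i • b i) u v =
      ∑ i ∈ s, x i * Φ.f (b i) u v := by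
    intro s u v
    classical
    induction s using Finset.induction_on with
    | empty =>
      simp only [Finset.sum_empty]
      have := Φ.smul 0 0 u v
      simpa using this
    | insert a s ha ih => rw [Finset.sum_insert ha, Finset.sum_insert ha, Φ.add, Φ.smul, ih]
  have h2 : ∀ (s : Finset ι) (u v : V), Φ.f u (∑ i ∈ s, y i • b i) v =
      ∑ i ∈ s, y i * Φ.f u (b i) v := by
    intro s u v
    classical
    induction s using Finset.induction_on with
    | empty =>
      simp only [Finset.sum_empty]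
      have := Φ.smul2 0 u 0 v
      simpa using this
    | insert a s ha ih => rw [Finset.sum_insert ha, Finset.sum_insert ha, Φ.add2, Φ.smul2, ih]
  have h3 : ∀ (s : Finset ι) (u v : V), Φ.f u v (∑ i ∈ s, z i • b i) =
      ∑ i ∈ s, z i * Φ.f u v (b i) := by
    intro s u v
    classical
    induction s using Finset.induction_on with
    | empty =>
      simp only [Finset.sum_empty]
      have := Φ.smul3 0 u v 0
      simpa using this
    | insert a s ha ih => rw [Finset.sum_insert ha, Finset.sum_insert ha, Φ.add3, Φ.smul3, ih]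
  rw [h1, tri]
  refine Finset.sum_congr rfl fun i _ => ?_
  rw [h2, Finset.mul_sum]
  refine Finset.sum_congr rfl fun j _ => ?_
  rw [h3, Finset.mul_sum, Finset.mul_sum]
  refine Finset.sum_congr rfl fun k _ => ?_
  simp
  ring

/-- Every cubic surface contains a line. -/
theorem exists_iso (hV : Module.finrank ℂ V = 4) :
    ∃ a b : V, Φ.Iso a b ∧ ∀ α β : ℂ, α • a + β • b = 0 → α = 0 ∧ β = 0 := by
  have : FiniteDimensional ℂ V := Module.finite_of_finrank_pos (by omega)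
  let B := Module.finBasisOfFinrankEq ℂ V hV
  obtain ⟨i, j, x, y, hxi, hxj, hyi, hyj, h1, h2, h3, h4⟩ :=
    exists_line_surface (fun i j k => Φ.f (B i) (B j) (B k))
      (fun i j k => ⟨Φ.c12 _ _ _, Φ.c23 _ _ _⟩)
  refine ⟨∑ i, x i • B i, ∑ i, y i • B i, ⟨?_, ?_, ?_, ?_⟩, ?_⟩
  · rw [f_sum]; exact h1
  · rw [f_sum]; exact h2
  · rw [f_sum]; exact h3
  · rw [f_sum]; exact h4
  · intro α β h0
    have e : ∀ k, α * x k + β * y k = 0 := by
      intro k
      have h5 : ∑ i, (α * x i + β * y i) • B i = 0 := by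
        rw [← h0, Finset.smul_sum, Finset.smul_sum, ← Finset.sum_add_distrib]
        refine Finset.sum_congr rfl fun i _ => ?_
        rw [add_smul, mul_smul, mul_smul]
      exact Fintype.linearIndependent_iff.1 B.linearIndependent _ h5 k
    have hi := e i
    have hj := e j
    rw [hxi, hyi] at hi
    rw [hxj, hyj] at hj
    exact ⟨by linear_combination hi, by linear_combination hj⟩

variable (Φ) in
theorem exists_iso' (hV : Module.finrank ℂ V = 4) :
    ∃ a b : V, Φ.Iso a b ∧ ∀ α β : ℂ, α • a + β • b = 0 → α = 0 ∧ β = 0 := exists_iso hV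

/-- There is a plane through an Eckardt point not containing a given other point. -/
theorem Eck.exists_plane_off {p q : V} (hq : Φ.Eck q) (hS : Φ.Smooth)
    (S : Φ.Split q) (hpq : LinearIndependent ℂ ![p, q]) :
    ∃ Q : Submodule ℂ V, Module.finrank ℂ Q = 3 ∧ (∀ x ∈ Q, Φ.f x x x = 0) ∧ p ∉ Q := by
  have hSW := hq.smooth hS S
  obtain ⟨a, b, hab, hind⟩ := (Φ.restr S.W).exists_iso' S.rank
  by_cases hp : p ∈ conePlane q (a : V) b
  · obtain ⟨c, d, hI⟩ := exists_ind4 S.rank hind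
    obtain ⟨u, v, huv, hI2⟩ := (Φ.restr S.W).exists_skew S.rank hSW hI hab
    refine ⟨conePlane q u v, conePlane_finrank S (ind4_pair hI2),
      fun x hx => hq.conePlane_iso S huv hx, ?_⟩
    intro hp2
    obtain ⟨α, β, γ, h1⟩ := mem_conePlane.1 hp
    obtain ⟨α', β', γ', h2⟩ := mem_conePlane.1 hp2
    have hM1 : S.M p = α := by
      rw [h1, map_add, map_add, map_smul, map_smul, map_smul, S.hMp, S.hWM a a.2, S.hWM b b.2]
      simp
    have hM2 : S.M p = α' := by
      rw [h2, map_add, map_add, map_smul, map_smul, map_smul, S.hMp, S.hWM u u.2, S.hWM v v.2]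
      simp
    have h3 : β • a + γ • b + (-β') • u + (-γ') • v = 0 := by
      apply Subtype.ext
      have h4 : β • (a : V) + γ • (b : V) = β' • (u : V) + γ' • (v : V) := by
        have h5 := h1.symm.trans h2
        rw [← hM1, ← hM2] at h5
        exact add_left_cancel h5
      simp only [Submodule.coe_add, Submodule.coe_smul, Submodule.coe_zero, h4]
      module
    obtain ⟨hβ, hγ, -, -⟩ := hI2 _ _ _ _ h3
    rw [hβ, hγ, zero_smul, zero_smul, add_zero, add_zero] at h1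
    rw [LinearIndependent.pair_iff] at hpq
    have := hpq 1 (-α) (by rw [h1]; module)
    exact one_ne_zero this.1
  · exact ⟨conePlane q a b, conePlane_finrank S hind, fun x hx => hq.conePlane_iso S hab hx, hp⟩

end gen

/-- Existence of the splitting at an Eckardt point. -/
theorem exists_split {Φ : STri (Fin 6 → ℂ)} (hS : Φ.Smooth) {p : Fin 6 → ℂ} (hp : Φ.Eck p) :
    Nonempty (Φ.Split p) := by
  obtain ⟨e, he⟩ := hS p hp.1
  obtain ⟨i, hi⟩ : ∃ i, p i ≠ 0 := by
    by_contra hcon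
    push Not at hcon
    exact hp.1 (funext hcon)
  let M : (Fin 6 → ℂ) →ₗ[ℂ] ℂ := (p i)⁻¹ • LinearMap.proj i
  have hMp : M p = 1 := by simp [M, inv_mul_cancel₀ hi]
  let G : (Fin 6 → ℂ) →ₗ[ℂ] ℂ × ℂ := (Φ.ppL p).prod M
  have hG : LinearMap.range G = ⊤ := by
    rw [LinearMap.range_eq_top]
    rintro ⟨a, b⟩
    refine ⟨(a / Φ.f p p e) • e + (b - a / Φ.f p p e * M e) • p, ?_⟩
    apply Prod.ext
    · show Φ.f p p _ = a
      rw [Φ.add3, Φ.smul3, Φ.smul3, hp.2.1, div_mul_cancel₀ _ he, mul_zero, add_zero]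
    · show M _ = b
      rw [map_add, map_smul, map_smul, hMp, smul_eq_mul, smul_eq_mul]
      ring
  have hrk : Module.finrank ℂ (LinearMap.ker G) = 4 := by
    have h1 := LinearMap.finrank_range_add_finrank_ker G
    rw [hG, finrank_top] at h1
    simp at h1
    omega
  refine ⟨{ W := LinearMap.ker G, e := e, M := M, hWL := ?_, hWM := ?_, hMp := hMp, hT := ?_,
            he := ?_, rank := hrk }⟩
  · intro w hw
    exact congrArg Prod.fst (LinearMap.mem_ker.1 hw)
  · intro w hw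
    exact congrArg Prod.snd (LinearMap.mem_ker.1 hw)
  · intro x hx
    rw [LinearMap.mem_ker]
    apply Prod.ext
    · show Φ.f p p (x - M x • p) = 0
      have := (Φ.ppL p).map_sub x (M x • p)
      have h2 : Φ.f p p (x - M x • p) = Φ.f p p x - Φ.f p p (M x • p) := this
      rw [h2, hx, Φ.smul3, hp.2.1, mul_zero, sub_zero]
    · show M (x - M x • p) = 0
      rw [map_sub, map_smul, hMp, smul_eq_mul, mul_one, sub_self]
  · intro x
    refine ⟨Φ.f p p x / Φ.f p p e, ?_⟩
    have h2 : Φ.f p p (x - (Φ.f p p x / Φ.f p p e) • e) =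
        Φ.f p p x - Φ.f p p ((Φ.f p p x / Φ.f p p e) • e) :=
      (Φ.ppL p).map_sub x ((Φ.f p p x / Φ.f p p e) • e)
    rw [h2, Φ.smul3, div_mul_cancel₀ _ he, sub_self]

end STri

theorem eck_of_point {F : MvPolynomial (Fin 6) ℂ} (hF : IsSmoothCubicFourfold F)
    {p : Fin 6 → ℂ} (hp : IsEckardtPoint F p) : (triS F).Eck p := by
  obtain ⟨hp0, hpF, hE⟩ := hp
  have hppp : (triS F).f p p p = 0 := by rw [← triS_eval hF.1]; exact hpF
  have hL : ∀ x, (triS F).f p p x = 0 → ∑ i, eval p (pderiv i F) * x i = 0 := by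
    intro x hx
    rw [sum_eval_pderiv hF.1]
    have : (tri (tens F) p p x : ℂ) = 0 := hx
    rw [this, mul_zero]
  have hxx : ∀ x, (triS F).f p p x = 0 → (triS F).f p x x = 0 := by
    intro x hx
    by_contra hq
    have h0 : ∀ t : ℂ, (triS F).f (x + t • p) (x + t • p) (x + t • p) =
        (triS F).f x x x + 3 * t * (triS F).f p x x := by
      intro t
      have := (triS F).cube_comb t 1 p x
      rw [one_smul, add_comm (t • p) x] at this
      rw [this, hppp, hx]
      ring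
    have h1 : (triS F).f p p (x + (-(triS F).f x x x / (3 * (triS F).f p x x)) • p) = 0 := by
      rw [(triS F).add3, (triS F).smul3, hx, hppp]; ring
    have h2 : eval (x + (-(triS F).f x x x / (3 * (triS F).f p x x)) • p) F = 0 := by
      rw [triS_eval hF.1, h0]
      field_simp
      ring
    have h3 := hE _ (hL _ h1) h2 1
    rw [triS_eval hF.1, add_assoc, ← add_smul, h0] at h3
    rw [triS_eval hF.1, h0] at h2
    apply hq
    linear_combination (1 / 3) * h3 - (1 / 3) * h2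
  refine ⟨hp0, hppp, ?_⟩
  intro v v' hv hv'
  have h1 := hxx (v + v') (by rw [(triS F).add3, hv, hv', add_zero])
  have h2 := hxx v hv
  have h3 := hxx v' hv'
  rw [(triS F).add2, (triS F).add3, (triS F).add3, h2, h3, (triS F).t1 p v v'] at h1
  linear_combination (1 / 2) * h1

/-- A smooth cubic fourfold with an Eckardt point `p` and a plane off `p` contains two disjoint
planes. -/
theorem disjoint_of_plane_off {F : MvPolynomial (Fin 6) ℂ} (hF : IsSmoothCubicFourfold F)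
    {p : Fin 6 → ℂ} (hp : IsEckardtPoint F p) {P : Submodule ℂ (Fin 6 → ℂ)}
    (hP : IsPlaneIn F P) (hpP : p ∉ P) :
    ∃ Q, IsPlaneIn F Q ∧ P ⊓ Q = ⊥ := by
  have hS := triS_smooth hF
  have hE := eck_of_point hF hp
  obtain ⟨S⟩ := STri.exists_split hS hE
  obtain ⟨Q, hQ, hQi, hPQ⟩ := hE.exists_disjoint hS S hP.1
    (fun x hx => by rw [← triS_eval hF.1]; exact hP.2 x hx) hpP
  exact ⟨Q, ⟨hQ, fun x hx => by rw [triS_eval hF.1]; exact hQi x hx⟩, hPQ⟩

/-- A smooth cubic fourfold with two Eckardt points contains a plane not through the first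
one. -/
theorem plane_off_of_two_eckardt {F : MvPolynomial (Fin 6) ℂ} (hF : IsSmoothCubicFourfold F)
    {p q : Fin 6 → ℂ} (hq : IsEckardtPoint F q)
    (hpq : LinearIndependent ℂ ![p, q]) : ∃ P, IsPlaneIn F P ∧ p ∉ P := by
  have hS := triS_smooth hF
  have hE := eck_of_point hF hq
  obtain ⟨S⟩ := STri.exists_split hS hE
  obtain ⟨Q, hQ, hQi, hpQ⟩ := hE.exists_plane_off hS S hpq
  exact ⟨Q, ⟨hQ, fun x hx => by rw [triS_eval hF.1]; exact hQi x hx⟩, hpQ⟩

end Vale.Agent.P287.H664
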