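import Mathlib

/-!
Symmetric trilinear forms on a four-dimensional space: on a smooth cubic surface every line has
a skew line.
-/

set_option linter.unusedSimpArgs false

namespace Vale.Agent.P287.H664

variable {V : Type} [AddCommGroup V] [Module ℂ V]

/-- A symmetric trilinear form. -/
structure STri (V : Type) [AddCommGroup V] [Module ℂ V] where
  f : V → V → V → ℂ
  add : ∀ x x' y z, f (x + x') y z = f x y z + f x' y z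
  smul : ∀ (a : ℂ) x y z, f (a • x) y z = a * f x y z
  c12 : ∀ x y z, f x y z = f y x z
  c23 : ∀ x y z, f x y z = f x z y

namespace STri

variable (Φ : STri V)

theorem add2 (x y y' z : V) : Φ.f x (y + y') z = Φ.f x y z + Φ.f x y' z := by
  rw [Φ.c12, Φ.add, Φ.c12 y, Φ.c12 y']

theorem add3 (x y z z' : V) : Φ.f x y (z + z') = Φ.f x y z + Φ.f x y z' := by
  rw [Φ.c23, Φ.add2, Φ.c23 x z, Φ.c23 x z']

theorem smul2 (a : ℂ) (x y z : V) : Φ.f x (a • y) z = a * Φ.f x y z := by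
  rw [Φ.c12, Φ.smul, Φ.c12 y]

theorem smul3 (a : ℂ) (x y z : V) : Φ.f x y (a • z) = a * Φ.f x y z := by
  rw [Φ.c23, Φ.smul2, Φ.c23 x z]

theorem q1 (a b : V) : Φ.f b a a = Φ.f a a b := by rw [Φ.c12, Φ.c23]
theorem q2 (a b : V) : Φ.f a b a = Φ.f a a b := by rw [Φ.c23]
theorem q3 (a b : V) : Φ.f b a b = Φ.f a b b := by rw [Φ.c12]
theorem q4 (a b : V) : Φ.f b b a = Φ.f a b b := by rw [Φ.c23, Φ.c12]
theorem t1 (a b c : V) : Φ.f a c b = Φ.f a b c := by rw [Φ.c23]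
theorem t2 (a b c : V) : Φ.f b a c = Φ.f a b c := by rw [Φ.c12]
theorem t3 (a b c : V) : Φ.f b c a = Φ.f a b c := by rw [Φ.c23, Φ.c12]
theorem t4 (a b c : V) : Φ.f c a b = Φ.f a b c := by rw [Φ.c12, Φ.c23]
theorem t5 (a b c : V) : Φ.f c b a = Φ.f a b c := by rw [Φ.c12, Φ.c23, Φ.c12]

/-- `Φ` vanishes on the span of `x, y`. -/
def Iso (x y : V) : Prop :=
  Φ.f x x x = 0 ∧ Φ.f x x y = 0 ∧ Φ.f x y y = 0 ∧ Φ.f y y y = 0

/-- The cubic surface is smooth. -/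
def Smooth : Prop := ∀ x : V, x ≠ 0 → ∃ y, Φ.f x x y ≠ 0

end STri

/-- Linear independence of four vectors. -/
def Ind4 (a b c d : V) : Prop :=
  ∀ α β γ δ : ℂ, α • a + β • b + γ • c + δ • d = 0 → α = 0 ∧ β = 0 ∧ γ = 0 ∧ δ = 0

theorem Ind4.li {a b c d : V} (h : Ind4 a b c d) : LinearIndependent ℂ ![a, b, c, d] := by
  rw [Fintype.linearIndependent_iff]
  intro g hg
  simp only [Fin.sum_univ_four, Matrix.cons_val_zero, Matrix.cons_val_one, Matrix.cons_val] at hg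
  obtain ⟨h0, h1, h2, h3⟩ := h _ _ _ _ hg
  intro i
  fin_cases i <;> assumption

theorem Ind4.span {a b c d : V} (hV : Module.finrank ℂ V = 4) (h : Ind4 a b c d) (v : V) :
    ∃ α β γ δ : ℂ, v = α • a + β • b + γ • c + δ • d := by
  have hs := h.li.span_eq_top_of_card_eq_finrank (by simp [hV])
  have hv : v ∈ Submodule.span ℂ (Set.range ![a, b, c, d]) := by rw [hs]; trivial
  rw [Submodule.mem_span_range_iff_exists_fun] at hv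
  obtain ⟨g, hg⟩ := hv
  simp only [Fin.sum_univ_four, Matrix.cons_val_zero, Matrix.cons_val_one, Matrix.cons_val] at hg
  exact ⟨_, _, _, _, hg.symm⟩

/-- a binary quadratic form has a nontrivial zero -/
theorem quad_zero (a b c : ℂ) : ∃ s t : ℂ, (s ≠ 0 ∨ t ≠ 0) ∧ a * s ^ 2 + b * (s * t) + c * t ^ 2 = 0 := by
  by_cases ha : a = 0
  · exact ⟨1, 0, Or.inl one_ne_zero, by simp [ha]⟩
  · obtain ⟨s, hs⟩ := IsAlgClosed.exists_root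
      (Polynomial.C a * Polynomial.X ^ 2 + Polynomial.C b * Polynomial.X + Polynomial.C c)
      (by rw [Polynomial.degree_quadratic ha]; decide)
    refine ⟨s, 1, Or.inr one_ne_zero, ?_⟩
    simp [Polynomial.IsRoot] at hs
    linear_combination hs

/-- root of a polynomial of degree at most five with nonzero coefficient in degree 4 or 5 -/
theorem quintic_root (k0 k1 k2 k3 k4 k5 : ℂ) (h : k5 ≠ 0 ∨ k4 ≠ 0) :
    ∃ s : ℂ, k5 * s ^ 5 + k4 * s ^ 4 + k3 * s ^ 3 + k2 * s ^ 2 + k1 * s + k0 = 0 := by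
  let p : Polynomial ℂ := Polynomial.C k5 * Polynomial.X ^ 5 + Polynomial.C k4 * Polynomial.X ^ 4
    + Polynomial.C k3 * Polynomial.X ^ 3 + Polynomial.C k2 * Polynomial.X ^ 2
    + Polynomial.C k1 * Polynomial.X + Polynomial.C k0
  have hd : p.degree ≠ 0 := by
    intro hd
    have h5 : p.coeff 5 = k5 := by
      simp [p, Polynomial.coeff_X, Polynomial.coeff_C]
    have h4 : p.coeff 4 = k4 := by
      simp [p, Polynomial.coeff_X, Polynomial.coeff_C]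
    rcases h with h | h
    · exact h (by rw [← h5]; exact Polynomial.coeff_eq_zero_of_degree_lt (by rw [hd]; norm_num))
    · exact h (by rw [← h4]; exact Polynomial.coeff_eq_zero_of_degree_lt (by rw [hd]; norm_num))
  obtain ⟨s, hs⟩ := IsAlgClosed.exists_root p hd
  refine ⟨s, ?_⟩
  simpa [p, Polynomial.IsRoot] using hs

namespace STri

variable (Φ : STri V)

/-- the discriminant of the residual conic of the line `e₀e₁` in the plane through `w` -/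
def disc (e₀ e₁ w : V) : ℂ :=
  4 * (Φ.f e₀ e₀ w * Φ.f e₁ e₁ w - Φ.f e₀ e₁ w ^ 2) * Φ.f w w w
    - 3 * (Φ.f e₀ e₀ w * Φ.f e₁ w w ^ 2 - 2 * Φ.f e₀ e₁ w * Φ.f e₀ w w * Φ.f e₁ w w
      + Φ.f e₁ e₁ w * Φ.f e₀ w w ^ 2)

theorem singular_of {a b c d x : V} (hV : Module.finrank ℂ V = 4) (h : Ind4 a b c d)
    (hS : Φ.Smooth) (hx : x ≠ 0) (ha : Φ.f x x a = 0) (hb : Φ.f x x b = 0) (hc : Φ.f x x c = 0)
    (hd : Φ.f x x d = 0) : False := by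
  obtain ⟨y, hy⟩ := hS x hx
  obtain ⟨α, β, γ, δ, rfl⟩ := h.span hV y
  apply hy
  simp only [Φ.add3, Φ.smul3, ha, hb, hc, hd]
  ring

/-- A degenerate residual conic contains a line different from the given one. -/
theorem exists_line {e₀ e₁ w w' : V} (hV : Module.finrank ℂ V = 4) (hI : Ind4 e₀ e₁ w w')
    (hS : Φ.Smooth) (h01 : Φ.Iso e₀ e₁) (hD : Φ.disc e₀ e₁ w = 0) :
    ∃ α β γ δ : ℂ, (α ≠ 0 ∨ β ≠ 0) ∧ Φ.Iso (α • e₀ + β • e₁) (w + (γ • e₀ + δ • e₁)) := by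
  obtain ⟨h000, h001, h011, h111⟩ := h01
  -- not double
  have hnd : ¬ (Φ.f e₀ e₀ w = 0 ∧ Φ.f e₀ e₁ w = 0 ∧ Φ.f e₁ e₁ w = 0) := by
    rintro ⟨h1, h2, h3⟩
    obtain ⟨s, t, hst, hq⟩ := quad_zero (Φ.f e₀ e₀ w') (2 * Φ.f e₀ e₁ w') (Φ.f e₁ e₁ w')
    refine Φ.singular_of (x := s • e₀ + t • e₁) hV hI hS ?_ ?_ ?_ ?_ ?_
    · intro h0
      have := hI s t 0 0 (by simpa using h0)
      rcases hst with h | h
      · exact h this.1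
      · exact h this.2.1
    · simp only [Φ.add, Φ.smul, Φ.add2, Φ.smul2, Φ.q1 e₀ e₁, Φ.q2 e₀ e₁, Φ.q3 e₀ e₁, Φ.q4 e₀ e₁,
        h000, h001, h011, h111]
      ring
    · simp only [Φ.add, Φ.smul, Φ.add2, Φ.smul2, Φ.q1 e₀ e₁, Φ.q2 e₀ e₁, Φ.q3 e₀ e₁, Φ.q4 e₀ e₁,
        h000, h001, h011, h111]
      ring
    · simp only [Φ.add, Φ.smul, Φ.add2, Φ.smul2, Φ.t2 e₀ e₁ w, h1, h2, h3]
      ring
    · simp only [Φ.add, Φ.smul, Φ.add2, Φ.smul2, Φ.t2 e₀ e₁ w']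
      linear_combination hq
  -- kernel vector
  let N : Matrix (Fin 3) (Fin 3) ℂ := !![2 * Φ.f e₀ e₀ w, 2 * Φ.f e₀ e₁ w, Φ.f e₀ w w;
    2 * Φ.f e₀ e₁ w, 2 * Φ.f e₁ e₁ w, Φ.f e₁ w w; 3 * Φ.f e₀ w w, 3 * Φ.f e₁ w w, 2 * Φ.f w w w]
  have hN : N.det = 0 := by
    have : N.det = 2 * Φ.disc e₀ e₁ w := by
      simp only [N, Matrix.det_fin_three, disc]
      simp
      ring
    rw [this, hD, mul_zero]
  obtain ⟨v, hv0, hv⟩ := Matrix.exists_mulVec_eq_zero_iff.2 hN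
  have r0 := congrFun hv 0
  have r1 := congrFun hv 1
  have r2 := congrFun hv 2
  simp [N, Matrix.mulVec, dotProduct, Fin.sum_univ_three] at r0 r1 r2
  by_cases hτ : v 2 = 0
  · rw [hτ] at r0 r1 r2
    simp only [mul_zero, add_zero] at r0 r1 r2
    have hv' : v 0 ≠ 0 ∨ v 1 ≠ 0 := by
      by_contra hcon
      push Not at hcon
      apply hv0
      funext i
      fin_cases i
      · exact hcon.1
      · exact hcon.2
      · exact hτ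
    -- complete `m = v0 e₀ + v1 e₁` by `m'`
    obtain ⟨p, q, hpq⟩ : ∃ p q : ℂ, p ^ 2 * Φ.f e₀ e₀ w + 2 * p * q * Φ.f e₀ e₁ w
        + q ^ 2 * Φ.f e₁ e₁ w ≠ 0 := by
      by_contra hcon
      push Not at hcon
      apply hnd
      have h10 := hcon 1 0
      have h01 := hcon 0 1
      have h11 := hcon 1 1
      simp at h10 h01
      refine ⟨h10, ?_, h01⟩
      simp [h10, h01] at h11
      exact h11
    -- solve for the third vector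
    obtain ⟨μ, hμ⟩ : ∃ μ : ℂ, 3 * (p ^ 2 * Φ.f e₀ e₀ w + 2 * p * q * Φ.f e₀ e₁ w
        + q ^ 2 * Φ.f e₁ e₁ w) * μ ^ 2 + 3 * (p * Φ.f e₀ w w + q * Φ.f e₁ w w) * μ
        + Φ.f w w w = 0 := by
      obtain ⟨μ, hμ⟩ := IsAlgClosed.exists_root
        (Polynomial.C (3 * (p ^ 2 * Φ.f e₀ e₀ w + 2 * p * q * Φ.f e₀ e₁ w
        + q ^ 2 * Φ.f e₁ e₁ w)) * Polynomial.X ^ 2 +
        Polynomial.C (3 * (p * Φ.f e₀ w w + q * Φ.f e₁ w w)) * Polynomial.X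
          + Polynomial.C (Φ.f w w w))
        (by rw [Polynomial.degree_quadratic (mul_ne_zero three_ne_zero hpq)]; decide)
      refine ⟨μ, ?_⟩
      simp [Polynomial.IsRoot] at hμ
      linear_combination hμ
    refine ⟨v 0, v 1, μ * p, μ * q, hv', ?_, ?_, ?_, ?_⟩
    · simp only [Φ.add, Φ.smul, Φ.add2, Φ.smul2, Φ.add3, Φ.smul3, Φ.q1 e₀ e₁, Φ.q2 e₀ e₁,
        Φ.q3 e₀ e₁, Φ.q4 e₀ e₁, h000, h001, h011, h111]
      ring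
    · simp only [Φ.add, Φ.smul, Φ.add2, Φ.smul2, Φ.add3, Φ.smul3, Φ.q1 e₀ e₁, Φ.q2 e₀ e₁,
        Φ.q3 e₀ e₁, Φ.q4 e₀ e₁, h000, h001, h011, h111, Φ.t2 e₀ e₁ w]
      linear_combination (v 0 / 2) * r0 + (v 1 / 2) * r1
    · simp only [Φ.add, Φ.smul, Φ.add2, Φ.smul2, Φ.add3, Φ.smul3, Φ.q1 e₀ e₁, Φ.q2 e₀ e₁,
        Φ.q3 e₀ e₁, Φ.q4 e₀ e₁, h000, h001, h011, h111, Φ.t2 e₀ e₁ w, Φ.t1 e₀ e₁ w,
        Φ.t3 e₀ e₁ w, Φ.q2 e₀ w, Φ.q2 e₁ w]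
      linear_combination (μ * p) * r0 + (μ * q) * r1 + (1 / 3) * r2
    · simp only [Φ.add, Φ.smul, Φ.add2, Φ.smul2, Φ.add3, Φ.smul3, Φ.q1 e₀ e₁, Φ.q2 e₀ e₁,
        Φ.q3 e₀ e₁, Φ.q4 e₀ e₁, h000, h001, h011, h111, Φ.t1 e₀ e₁ w, Φ.t2 e₀ e₁ w,
        Φ.t3 e₀ e₁ w, Φ.t4 e₀ e₁ w, Φ.t5 e₀ e₁ w, Φ.q1 e₀ w, Φ.q2 e₀ w, Φ.q3 e₀ w, Φ.q4 e₀ w,
        Φ.q1 e₁ w, Φ.q2 e₁ w, Φ.q3 e₁ w, Φ.q4 e₁ w]
      linear_combination hμ
  · -- `n = w + x`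
    set x0 := v 0 / v 2 with hx0
    set x1 := v 1 / v 2 with hx1
    have s0 : 2 * Φ.f e₀ e₀ w * x0 + 2 * Φ.f e₀ e₁ w * x1 + Φ.f e₀ w w = 0 := by
      rw [hx0, hx1]; field_simp; linear_combination r0
    have s1 : 2 * Φ.f e₀ e₁ w * x0 + 2 * Φ.f e₁ e₁ w * x1 + Φ.f e₁ w w = 0 := by
      rw [hx0, hx1]; field_simp; linear_combination r1
    have s2 : 3 * Φ.f e₀ w w * x0 + 3 * Φ.f e₁ w w * x1 + 2 * Φ.f w w w = 0 := by
      rw [hx0, hx1]; field_simp; linear_combination r2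
    obtain ⟨s, t, hst, hq⟩ := quad_zero (Φ.f e₀ e₀ w) (2 * Φ.f e₀ e₁ w) (Φ.f e₁ e₁ w)
    refine ⟨s, t, x0, x1, hst, ?_, ?_, ?_, ?_⟩
    · simp only [Φ.add, Φ.smul, Φ.add2, Φ.smul2, Φ.add3, Φ.smul3, Φ.q1 e₀ e₁, Φ.q2 e₀ e₁,
        Φ.q3 e₀ e₁, Φ.q4 e₀ e₁, h000, h001, h011, h111]
      ring
    · simp only [Φ.add, Φ.smul, Φ.add2, Φ.smul2, Φ.add3, Φ.smul3, Φ.q1 e₀ e₁, Φ.q2 e₀ e₁,
        Φ.q3 e₀ e₁, Φ.q4 e₀ e₁, h000, h001, h011, h111, Φ.t2 e₀ e₁ w]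
      linear_combination hq
    · simp only [Φ.add, Φ.smul, Φ.add2, Φ.smul2, Φ.add3, Φ.smul3, Φ.q1 e₀ e₁, Φ.q2 e₀ e₁,
        Φ.q3 e₀ e₁, Φ.q4 e₀ e₁, h000, h001, h011, h111, Φ.t2 e₀ e₁ w, Φ.t1 e₀ e₁ w,
        Φ.t3 e₀ e₁ w, Φ.q2 e₀ w, Φ.q2 e₁ w]
      linear_combination s * s0 + t * s1
    · simp only [Φ.add, Φ.smul, Φ.add2, Φ.smul2, Φ.add3, Φ.smul3, Φ.q1 e₀ e₁, Φ.q2 e₀ e₁,
        Φ.q3 e₀ e₁, Φ.q4 e₀ e₁, h000, h001, h011, h111, Φ.t1 e₀ e₁ w, Φ.t2 e₀ e₁ w,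
        Φ.t3 e₀ e₁ w, Φ.t4 e₀ e₁ w, Φ.t5 e₀ e₁ w, Φ.q1 e₀ w, Φ.q2 e₀ w, Φ.q3 e₀ w, Φ.q4 e₀ w,
        Φ.q1 e₁ w, Φ.q2 e₁ w, Φ.q3 e₁ w, Φ.q4 e₁ w]
      linear_combination (3 / 2 * x0) * s0 + (3 / 2 * x1) * s1 + (1 / 2) * s2

theorem disc_root_aux (a0 a1 b0 b1 c0 c1 d0 d1 d2 e0 e1 e2 g0 g1 g2 g3 : ℂ)
    (h : 4*a0*c0*g3 + (-3)*a0*e2^2 + 6*b0*d2*e2 + (-4)*b0^2*g3 + (-3)*c0*d2^2 ≠ 0 ∨
      4*a0*c0*g2 + 4*a0*c1*g3 + (-6)*a0*e1*e2 + 4*a1*c0*g3 + (-3)*a1*e2^2 + (-8)*b0*b1*g3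
      + 6*b0*d1*e2 + 6*b0*d2*e1 + (-4)*b0^2*g2 + 6*b1*d2*e2 + (-6)*c0*d1*d2
      + (-3)*c1*d2^2 ≠ 0) :
    ∃ s : ℂ, 4 * ((a1 + s * a0) * (c1 + s * c0) - (b1 + s * b0) ^ 2)
        * (g0 + g1 * s + g2 * s ^ 2 + g3 * s ^ 3)
      - 3 * ((a1 + s * a0) * (e0 + e1 * s + e2 * s ^ 2) ^ 2
        - 2 * (b1 + s * b0) * (d0 + d1 * s + d2 * s ^ 2) * (e0 + e1 * s + e2 * s ^ 2)
        + (c1 + s * c0) * (d0 + d1 * s + d2 * s ^ 2) ^ 2) = 0 := by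
  obtain ⟨s, hs⟩ := quintic_root
    (4*a1*c1*g0 + (-3)*a1*e0^2 + 6*b1*d0*e0 + (-4)*b1^2*g0 + (-3)*c1*d0^2)
    (4*a0*c1*g0 + (-3)*a0*e0^2 + 4*a1*c0*g0 + 4*a1*c1*g1 + (-6)*a1*e0*e1 + (-8)*b0*b1*g0
      + 6*b0*d0*e0 + 6*b1*d0*e1 + 6*b1*d1*e0 + (-4)*b1^2*g1 + (-3)*c0*d0^2 + (-6)*c1*d0*d1)
    (4*a0*c0*g0 + 4*a0*c1*g1 + (-6)*a0*e0*e1 + 4*a1*c0*g1 + 4*a1*c1*g2 + (-6)*a1*e0*e2
      + (-3)*a1*e1^2 + (-8)*b0*b1*g1 + 6*b0*d0*e1 + 6*b0*d1*e0 + (-4)*b0^2*g0 + 6*b1*d0*e2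
      + 6*b1*d1*e1 + 6*b1*d2*e0 + (-4)*b1^2*g2 + (-6)*c0*d0*d1 + (-6)*c1*d0*d2
      + (-3)*c1*d1^2)
    (4*a0*c0*g1 + 4*a0*c1*g2 + (-6)*a0*e0*e2 + (-3)*a0*e1^2 + 4*a1*c0*g2 + 4*a1*c1*g3
      + (-6)*a1*e1*e2 + (-8)*b0*b1*g2 + 6*b0*d0*e2 + 6*b0*d1*e1 + 6*b0*d2*e0
      + (-4)*b0^2*g1 + 6*b1*d1*e2 + 6*b1*d2*e1 + (-4)*b1^2*g3 + (-6)*c0*d0*d2
      + (-3)*c0*d1^2 + (-6)*c1*d1*d2) _ _ h
  refine ⟨s, ?_⟩
  linear_combination hs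

/-- Existence of a degenerate residual conic in the planes through `f₁ + s f₀`. -/
theorem disc_root (e₀ e₁ f₀ f₁ : V)
    (h : Φ.disc e₀ e₁ f₀ ≠ 0 ∨
      4*Φ.f e₀ e₀ f₀*Φ.f e₁ e₁ f₀*(3*Φ.f f₀ f₀ f₁) + 4*Φ.f e₀ e₀ f₀*Φ.f e₁ e₁ f₁*Φ.f f₀ f₀ f₀
      + (-6)*Φ.f e₀ e₀ f₀*(2*Φ.f e₁ f₀ f₁)*Φ.f e₁ f₀ f₀
      + 4*Φ.f e₀ e₀ f₁*Φ.f e₁ e₁ f₀*Φ.f f₀ f₀ f₀ + (-3)*Φ.f e₀ e₀ f₁*(Φ.f e₁ f₀ f₀)^2
      + (-8)*Φ.f e₀ e₁ f₀*Φ.f e₀ e₁ f₁*Φ.f f₀ f₀ f₀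
      + 6*Φ.f e₀ e₁ f₀*(2*Φ.f e₀ f₀ f₁)*Φ.f e₁ f₀ f₀
      + 6*Φ.f e₀ e₁ f₀*Φ.f e₀ f₀ f₀*(2*Φ.f e₁ f₀ f₁)
      + (-4)*(Φ.f e₀ e₁ f₀)^2*(3*Φ.f f₀ f₀ f₁)
      + 6*Φ.f e₀ e₁ f₁*Φ.f e₀ f₀ f₀*Φ.f e₁ f₀ f₀
      + (-6)*Φ.f e₁ e₁ f₀*(2*Φ.f e₀ f₀ f₁)*Φ.f e₀ f₀ f₀
      + (-3)*Φ.f e₁ e₁ f₁*(Φ.f e₀ f₀ f₀)^2 ≠ 0) :
    ∃ s : ℂ, Φ.disc e₀ e₁ (f₁ + s • f₀) = 0 := by
  obtain ⟨s, hs⟩ := disc_root_aux (Φ.f e₀ e₀ f₀) (Φ.f e₀ e₀ f₁) (Φ.f e₀ e₁ f₀) (Φ.f e₀ e₁ f₁)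
    (Φ.f e₁ e₁ f₀) (Φ.f e₁ e₁ f₁) (Φ.f e₀ f₁ f₁) (2 * Φ.f e₀ f₀ f₁) (Φ.f e₀ f₀ f₀)
    (Φ.f e₁ f₁ f₁) (2 * Φ.f e₁ f₀ f₁) (Φ.f e₁ f₀ f₀) (Φ.f f₁ f₁ f₁) (3 * Φ.f f₀ f₁ f₁)
    (3 * Φ.f f₀ f₀ f₁) (Φ.f f₀ f₀ f₀) (by
      rcases h with h | h
      · left
        intro h'
        apply h
        unfold disc
        linear_combination h'
      · right
        exact h)
  refine ⟨s, ?_⟩
  unfold disc
  simp only [Φ.add2, Φ.smul2, Φ.add3, Φ.smul3, Φ.add, Φ.smul, Φ.t1 e₀ f₀ f₁, Φ.t1 e₁ f₀ f₁,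
    Φ.q1 f₀ f₁, Φ.q2 f₀ f₁, Φ.q3 f₀ f₁, Φ.q4 f₀ f₁]
  linear_combination hs

/-- Core of the construction of a skew line. -/
theorem skew_core {m r n f : V} (hV : Module.finrank ℂ V = 4) (hS : Φ.Smooth)
    (hI : Ind4 m r n f) (hmr : Φ.Iso m r) (hmn : Φ.Iso m n) :
    ∃ p q, Φ.Iso p q ∧ Ind4 m r p q := by
  obtain ⟨mmm, mmr, mrr, rrr⟩ := hmr
  obtain ⟨-, mmn, mnn, nnn⟩ := hmn
  have hm0 : m ≠ 0 := by
    intro h
    have := hI 1 0 0 0 (by simp [h])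
    exact one_ne_zero this.1
  have hmmf : Φ.f m m f ≠ 0 := fun h => Φ.singular_of hV hI hS hm0 mmm mmr mmn h
  -- the good root
  obtain ⟨κ, s, hs⟩ : ∃ κ s : ℂ, Φ.disc m n (f + s • (r + κ • m)) = 0 := by
    by_cases hb : Φ.f m n r = 0
    · refine ⟨0, ?_⟩
      rw [zero_smul, add_zero]
      have he : Φ.f n r r ≠ 0 := by
        intro he
        obtain ⟨a, c, hac, hq⟩ := quad_zero (Φ.f m m f) (2 * Φ.f m r f) (Φ.f r r f)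
        refine Φ.singular_of (x := a • m + c • r) hV hI hS ?_ ?_ ?_ ?_ ?_
        · intro h0
          have := hI a c 0 0 (by simpa using h0)
          rcases hac with h | h
          · exact h this.1
          · exact h this.2.1
        · simp only [Φ.add, Φ.smul, Φ.add2, Φ.smul2, Φ.q1 m r, Φ.q2 m r, Φ.q3 m r, Φ.q4 m r,
            mmm, mmr, mrr, rrr]
          ring
        · simp only [Φ.add, Φ.smul, Φ.add2, Φ.smul2, Φ.q1 m r, Φ.q2 m r, Φ.q3 m r, Φ.q4 m r,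
            mmm, mmr, mrr, rrr]
          ring
        · simp only [Φ.add, Φ.smul, Φ.add2, Φ.smul2, Φ.t1 m n r, Φ.t4 m n r, mmn, hb,
            Φ.q4 n r, he]
          ring
        · simp only [Φ.add, Φ.smul, Φ.add2, Φ.smul2, Φ.t2 m r f]
          linear_combination hq
      apply Φ.disc_root
      right
      simp only [mmr, hb, mrr, rrr]
      have : Φ.f m m f * Φ.f n r r ^ 2 ≠ 0 := mul_ne_zero hmmf (pow_ne_zero 2 he)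
      intro h
      apply this
      linear_combination (-1 / 3) * h
    · set κ : ℂ := - (Φ.f n r r / (2 * Φ.f m n r)) with hκ
      refine ⟨κ, ?_⟩
      have hκ' : Φ.f n r r + 2 * κ * Φ.f m n r = 0 := by
        rw [hκ]; field_simp; ring
      set g := r + κ • m with hg
      have g0 : g ≠ 0 := by
        intro h
        have := hI κ 1 0 0 (by rw [zero_smul, zero_smul, one_smul, add_zero, add_zero,
          add_comm, ← hg, h])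
        exact one_ne_zero this.2.1
      have mmg : Φ.f m m g = 0 := by
        rw [hg]; simp only [Φ.add3, Φ.smul3, mmr, mmm]; ring
      have mgg : Φ.f m g g = 0 := by
        rw [hg]; simp only [Φ.add3, Φ.smul3, Φ.add2, Φ.smul2, Φ.q2 m r, mmr, mmm, mrr]; ring
      have rgg : Φ.f r g g = 0 := by
        rw [hg]
        simp only [Φ.add3, Φ.smul3, Φ.add2, Φ.smul2, Φ.q1 m r, Φ.q3 m r, Φ.q4 m r, rrr, mmr, mrr]
        ring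
      have ggg : Φ.f g g g = 0 := by
        conv_lhs => rw [hg]
        rw [← hg, Φ.add, Φ.smul, rgg, mgg]; ring
      have ngg : Φ.f n g g = 0 := by
        rw [hg]
        simp only [Φ.add3, Φ.smul3, Φ.add2, Φ.smul2, Φ.t2 m n r, Φ.t3 m n r, Φ.q1 m n, mmn]
        linear_combination hκ'
      have mng : Φ.f m n g = Φ.f m n r := by
        rw [hg]; simp only [Φ.add3, Φ.smul3, Φ.q2 m n, mmn]; ring
      have hggf : Φ.f g g f ≠ 0 := by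
        intro h
        exact Φ.singular_of hV hI hS g0 (by rw [Φ.q4 m g, mgg]) (by rw [Φ.q4 r g, rgg])
          (by rw [Φ.q4 n g, ngg]) h
      apply Φ.disc_root
      right
      simp only [mmg, mgg, ngg, ggg, mng]
      have : Φ.f m n r ^ 2 * Φ.f g g f ≠ 0 := mul_ne_zero (pow_ne_zero 2 hb) hggf
      intro h
      apply this
      linear_combination (-1 / 12) * h
  have hI2 : Ind4 m n (f + s • (r + κ • m)) r := by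
    intro a b c d h
    have h' : (a + c * (s * κ)) • m + (c * s + d) • r + b • n + c • f = 0 := by
      rw [← h]; module
    obtain ⟨h1, h2, h3, h4⟩ := hI _ _ _ _ h'
    subst h4
    simp at h1 h2
    exact ⟨h1, h3, rfl, h2⟩
  obtain ⟨α, β, γ, δ, hαβ, hiso⟩ := Φ.exists_line hV hI2 hS ⟨mmm, mmn, mnn, nnn⟩ hs
  refine ⟨_, _, hiso, ?_⟩
  have hβ : β ≠ 0 := by
    intro hβ
    have hα : α ≠ 0 := by
      rcases hαβ with h | h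
      · exact h
      · exact absurd hβ h
    apply hmmf
    have h2 := hiso.2.1
    rw [hβ] at h2
    simp only [zero_smul, add_zero, Φ.smul, Φ.smul2, Φ.add3, Φ.smul3, mmr, mmm, mmn] at h2
    have h3 : α * α * Φ.f m m f = 0 := by linear_combination h2
    rcases mul_eq_zero.1 h3 with h4 | h4
    · exact absurd (mul_self_eq_zero.1 h4) hα
    · exact h4
  intro a b c d h
  have h' : (a + c * α + d * (s * κ) + d * γ) • m + (b + d * s) • r + (c * β + d * δ) • n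
      + d • f = 0 := by
    rw [← h]; module
  obtain ⟨h1, h2, h3, h4⟩ := hI _ _ _ _ h'
  subst h4
  simp at h1 h2 h3
  have hc : c = 0 := by
    rcases h3 with h | h
    · exact h
    · exact absurd h hβ
  subst hc
  simp at h1
  exact ⟨h1, h2, rfl, rfl⟩

/-- On a smooth cubic surface every line has a skew line. -/
theorem exists_skew {e₀ e₁ f₀ f₁ : V} (hV : Module.finrank ℂ V = 4) (hS : Φ.Smooth)
    (hI : Ind4 e₀ e₁ f₀ f₁) (h01 : Φ.Iso e₀ e₁) :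
    ∃ p q, Φ.Iso p q ∧ Ind4 e₀ e₁ p q := by
  -- a degenerate plane
  obtain ⟨w, w', hI', hD⟩ : ∃ w w', Ind4 e₀ e₁ w w' ∧ Φ.disc e₀ e₁ w = 0 := by
    by_cases h : Φ.disc e₀ e₁ f₀ = 0
    · exact ⟨f₀, f₁, hI, h⟩
    · obtain ⟨s, hs⟩ := Φ.disc_root e₀ e₁ f₀ f₁ (Or.inl h)
      refine ⟨_, f₀, ?_, hs⟩
      intro a b c d h
      have h' : a • e₀ + b • e₁ + (c * s + d) • f₀ + c • f₁ = 0 := by
        rw [← h]; module
      obtain ⟨h1, h2, h3, h4⟩ := hI _ _ _ _ h'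
      subst h4
      simp at h3
      exact ⟨h1, h2, rfl, h3⟩
  obtain ⟨α, β, γ, δ, hαβ, hiso⟩ := Φ.exists_line hV hI' hS h01 hD
  obtain ⟨h000, h001, h011, h111⟩ := h01
  by_cases hα : α = 0
  · have hβ : β ≠ 0 := by
      rcases hαβ with h | h
      · exact absurd hα h
      · exact h
    subst hα
    have hiso1 : Φ.Iso ((0 : ℂ) • e₀ + β • e₁) e₀ := by
      refine ⟨?_, ?_, ?_, ?_⟩ <;>
      simp only [zero_smul, zero_add, Φ.smul, Φ.smul2, Φ.smul3, Φ.q1 e₀ e₁, Φ.q4 e₀ e₁, h000, h001,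
        h011, h111] <;> ring
    have hI1 : Ind4 ((0 : ℂ) • e₀ + β • e₁) e₀ (w + (γ • e₀ + δ • e₁)) w' := by
      intro a b c d h
      have h' : (b + c * γ) • e₀ + (a * β + c * δ) • e₁ + c • w + d • w' = 0 := by
        rw [← h]; module
      obtain ⟨h1, h2, h3, h4⟩ := hI' _ _ _ _ h'
      subst h3
      simp [hβ] at h1 h2
      exact ⟨h2, h1, rfl, h4⟩
    obtain ⟨p, q, hpq, hI2⟩ := Φ.skew_core hV hS hI1 hiso1 hiso
    refine ⟨p, q, hpq, ?_⟩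
    intro a b c d h
    have h' : (b / β) • ((0 : ℂ) • e₀ + β • e₁) + a • e₀ + c • p + d • q = 0 := by
      rw [zero_smul, zero_add, smul_smul, div_mul_cancel₀ _ hβ, ← h]; module
    obtain ⟨h1, h2, h3, h4⟩ := hI2 _ _ _ _ h'
    refine ⟨h2, ?_, h3, h4⟩
    rcases div_eq_zero_iff.1 h1 with h | h
    · exact h
    · exact absurd h hβ
  · have hiso1 : Φ.Iso (α • e₀ + β • e₁) e₁ := by
      refine ⟨?_, ?_, ?_, ?_⟩ <;>
      simp only [Φ.add, Φ.add2, Φ.add3, Φ.smul, Φ.smul2, Φ.smul3, Φ.q1 e₀ e₁, Φ.q2 e₀ e₁,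
        Φ.q3 e₀ e₁, Φ.q4 e₀ e₁, h000, h001, h011, h111] <;> ring
    have hI1 : Ind4 (α • e₀ + β • e₁) e₁ (w + (γ • e₀ + δ • e₁)) w' := by
      intro a b c d h
      have h' : (a * α + c * γ) • e₀ + (a * β + b + c * δ) • e₁ + c • w + d • w' = 0 := by
        rw [← h]; module
      obtain ⟨h1, h2, h3, h4⟩ := hI' _ _ _ _ h'
      subst h3
      simp [hα] at h1
      subst h1
      simp at h2
      exact ⟨rfl, h2, rfl, h4⟩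
    obtain ⟨p, q, hpq, hI2⟩ := Φ.skew_core hV hS hI1 hiso1 hiso
    refine ⟨p, q, hpq, ?_⟩
    intro a b c d h
    have h' : (a / α) • (α • e₀ + β • e₁) + (b - a / α * β) • e₁ + c • p + d • q = 0 := by
      rw [← h, smul_add, smul_smul, div_mul_cancel₀ _ hα]; module
    obtain ⟨h1, h2, h3, h4⟩ := hI2 _ _ _ _ h'
    have ha : a = 0 := by
      rcases div_eq_zero_iff.1 h1 with h | h
      · exact h
      · exact absurd h hα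
    subst ha
    simp at h2
    exact ⟨rfl, h2, h3, h4⟩

end STri

end Vale.Agent.P287.H664
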