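import Mathlib

/-!
Symmetric trilinear forms attached to cubic forms.
-/

set_option linter.unusedSectionVars false

namespace Vale.Agent.P287.H664

open MvPolynomial

variable {ι : Type} [Fintype ι]

/-- The trilinear form with coefficients `φ`, with values in a commutative `ℂ`-algebra `A`. -/
def tri (φ : ι → ι → ι → ℂ) {A : Type} [CommRing A] [Algebra ℂ A] (x y z : ι → A) : A :=
  ∑ i, ∑ j, ∑ k, φ i j k • (x i * y j * z k)

/-- The coefficient tensor is symmetric. -/
def Sym (φ : ι → ι → ι → ℂ) : Prop := ∀ i j k, φ i j k = φ j i k ∧ φ i j k = φ i k j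

section
variable (φ : ι → ι → ι → ℂ) {A B : Type} [CommRing A] [Algebra ℂ A] [CommRing B] [Algebra ℂ B]

theorem tri_add₁ (x x' y z : ι → A) : tri φ (x + x') y z = tri φ x y z + tri φ x' y z := by
  simp only [tri, ← Finset.sum_add_distrib]
  refine Finset.sum_congr rfl fun i _ => Finset.sum_congr rfl fun j _ =>
    Finset.sum_congr rfl fun k _ => ?_
  rw [← smul_add, Pi.add_apply]
  congr 1
  ring

theorem tri_add₂ (x y y' z : ι → A) : tri φ x (y + y') z = tri φ x y z + tri φ x y' z := by
  simp only [tri, ← Finset.sum_add_distrib]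
  refine Finset.sum_congr rfl fun i _ => Finset.sum_congr rfl fun j _ =>
    Finset.sum_congr rfl fun k _ => ?_
  rw [← smul_add, Pi.add_apply]
  congr 1
  ring

theorem tri_add₃ (x y z z' : ι → A) : tri φ x y (z + z') = tri φ x y z + tri φ x y z' := by
  simp only [tri, ← Finset.sum_add_distrib]
  refine Finset.sum_congr rfl fun i _ => Finset.sum_congr rfl fun j _ =>
    Finset.sum_congr rfl fun k _ => ?_
  rw [← smul_add, Pi.add_apply]
  congr 1
  ring

theorem tri_smul₁ (a : A) (x y z : ι → A) : tri φ (a • x) y z = a * tri φ x y z := by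
  simp only [tri, Finset.mul_sum]
  refine Finset.sum_congr rfl fun i _ => Finset.sum_congr rfl fun j _ =>
    Finset.sum_congr rfl fun k _ => ?_
  rw [mul_smul_comm, Pi.smul_apply, smul_eq_mul]
  congr 1
  ring

theorem tri_smul₂ (a : A) (x y z : ι → A) : tri φ x (a • y) z = a * tri φ x y z := by
  simp only [tri, Finset.mul_sum]
  refine Finset.sum_congr rfl fun i _ => Finset.sum_congr rfl fun j _ =>
    Finset.sum_congr rfl fun k _ => ?_
  rw [mul_smul_comm, Pi.smul_apply, smul_eq_mul]
  congr 1
  ring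

theorem tri_smul₃ (a : A) (x y z : ι → A) : tri φ x y (a • z) = a * tri φ x y z := by
  simp only [tri, Finset.mul_sum]
  refine Finset.sum_congr rfl fun i _ => Finset.sum_congr rfl fun j _ =>
    Finset.sum_congr rfl fun k _ => ?_
  rw [mul_smul_comm, Pi.smul_apply, smul_eq_mul]
  congr 1
  ring

theorem map_tri (f : A →ₐ[ℂ] B) (x y z : ι → A) :
    f (tri φ x y z) = tri φ (fun i => f (x i)) (fun i => f (y i)) (fun i => f (z i)) := by
  simp only [tri, map_sum, map_smul, map_mul]

variable {φ}

theorem tri_comm₁₂ (h : Sym φ) (x y z : ι → A) : tri φ x y z = tri φ y x z := by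
  unfold tri
  rw [Finset.sum_comm]
  refine Finset.sum_congr rfl fun i _ => Finset.sum_congr rfl fun j _ =>
    Finset.sum_congr rfl fun k _ => ?_
  rw [(h j i k).1]
  congr 1
  ring

theorem tri_comm₂₃ (h : Sym φ) (x y z : ι → A) : tri φ x y z = tri φ x z y := by
  unfold tri
  refine Finset.sum_congr rfl fun i _ => ?_
  rw [Finset.sum_comm]
  refine Finset.sum_congr rfl fun j _ => Finset.sum_congr rfl fun k _ => ?_
  rw [(h i k j).2]
  congr 1
  ring

/-- Expansion of the cubic form on a sum. -/
theorem tri_cube_add (h : Sym φ) (x y : ι → A) :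
    tri φ (x + y) (x + y) (x + y) = tri φ x x x + 3 * tri φ x x y + 3 * tri φ x y y
      + tri φ y y y := by
  have e1 : tri φ x y x = tri φ x x y := tri_comm₂₃ h _ _ _
  have e2 : tri φ y x x = tri φ x x y := by rw [tri_comm₁₂ h, e1]
  have e3 : tri φ y x y = tri φ x y y := tri_comm₁₂ h _ _ _
  have e4 : tri φ y y x = tri φ x y y := by rw [tri_comm₂₃ h, e3]
  simp only [tri_add₁, tri_add₂, tri_add₃, e1, e2, e3, e4]
  ring

/-- Expansion of the cubic form on a linear combination. -/
theorem tri_cube_comb (h : Sym φ) (s t : A) (x y : ι → A) :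
    tri φ (s • x + t • y) (s • x + t • y) (s • x + t • y) =
      s ^ 3 * tri φ x x x + 3 * s ^ 2 * t * tri φ x x y + 3 * s * t ^ 2 * tri φ x y y
      + t ^ 3 * tri φ y y y := by
  rw [tri_cube_add h]
  simp only [tri_smul₁, tri_smul₂, tri_smul₃]
  ring

end

/-- The coefficient tensor of a cubic form. -/
noncomputable def tens (F : MvPolynomial ι ℂ) (i j k : ι) : ℂ :=
  (1 / 6 : ℂ) * coeff 0 (pderiv i (pderiv j (pderiv k F)))

omit [Fintype ι] in
theorem pderiv_comm' [DecidableEq ι] (i j : ι) (F : MvPolynomial ι ℂ) :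
    pderiv i (pderiv j F) = pderiv j (pderiv i F) := by
  induction F using MvPolynomial.induction_on with
  | C a => simp
  | add p q hp hq => simp [hp, hq]
  | mul_X p k hp =>
    have h1 : ∀ (a b : ι), pderiv a (Pi.single (M := fun _ => MvPolynomial ι ℂ) b 1 k) = 0 := by
      intro a b
      by_cases h : k = b
      · subst h; simp
      · simp [h]
    simp only [Derivation.leibniz, smul_eq_mul, map_add, hp, pderiv_X, h1]
    ring

theorem tens_sym (F : MvPolynomial ι ℂ) : Sym (tens F) := by
  classical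
  intro i j k
  refine ⟨?_, ?_⟩
  · unfold tens; rw [pderiv_comm' i j]
  · unfold tens; rw [pderiv_comm' j k]

omit [Fintype ι] in
theorem eq_C_of_hom0 {F : MvPolynomial ι ℂ} (h : F.IsHomogeneous 0) : F = C (coeff 0 F) := by
  have := (totalDegree_zero_iff_isHomogeneous (p := F)).2 h
  exact (totalDegree_eq_zero_iff_eq_C (p := F)).1 this

theorem pderiv3_eq {F : MvPolynomial ι ℂ} (hF : F.IsHomogeneous 3) (i j k : ι) :
    pderiv i (pderiv j (pderiv k F)) = C (6 * tens F i j k) := by
  have h3 : (pderiv i (pderiv j (pderiv k F))).IsHomogeneous 0 := (hF.pderiv).pderiv.pderiv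
  rw [eq_C_of_hom0 h3]
  congr 1
  simp [tens]

theorem pderiv2_eq {F : MvPolynomial ι ℂ} (hF : F.IsHomogeneous 3) (j k : ι) :
    pderiv j (pderiv k F) = ∑ i, X i * C (6 * tens F i j k) := by
  have h2 : (pderiv j (pderiv k F)).IsHomogeneous 1 := (hF.pderiv).pderiv
  have e3 := h2.sum_X_mul_pderiv
  rw [one_smul] at e3
  rw [← e3]
  exact Finset.sum_congr rfl fun i _ => by rw [pderiv3_eq hF]

theorem pderiv1_eq {F : MvPolynomial ι ℂ} (hF : F.IsHomogeneous 3) (k : ι) :
    2 * pderiv k F = ∑ j, X j * ∑ i, X i * C (6 * tens F i j k) := by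
  have h2 : (pderiv k F).IsHomogeneous 2 := hF.pderiv
  have e3 := h2.sum_X_mul_pderiv
  have : (2 : MvPolynomial ι ℂ) * pderiv k F = 2 • pderiv k F := by simp
  rw [this, ← e3]
  exact Finset.sum_congr rfl fun i _ => by rw [pderiv2_eq hF]

theorem sum3_perm {M : Type} [AddCommMonoid M] (f : ι → ι → ι → M) :
    ∑ k, ∑ j, ∑ i, f i j k = ∑ i, ∑ j, ∑ k, f i j k := by
  calc ∑ k, ∑ j, ∑ i, f i j k = ∑ k, ∑ i, ∑ j, f i j k :=
        Finset.sum_congr rfl fun k _ => Finset.sum_comm
    _ = ∑ i, ∑ k, ∑ j, f i j k := Finset.sum_comm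
    _ = _ := Finset.sum_congr rfl fun k _ => Finset.sum_comm

theorem eq_tri {F : MvPolynomial ι ℂ} (hF : F.IsHomogeneous 3) :
    F = tri (tens F) X X X := by
  have e1 := hF.sum_X_mul_pderiv
  have key : (6 : MvPolynomial ι ℂ) * F = 6 * tri (tens F) X X X := by
    calc (6 : MvPolynomial ι ℂ) * F = 2 * (3 • F) := by rw [nsmul_eq_mul]; push_cast; ring
      _ = ∑ k, X k * (2 * pderiv k F) := by
          rw [← e1, Finset.mul_sum]; refine Finset.sum_congr rfl fun k _ => ?_; ring
      _ = ∑ k, ∑ j, ∑ i, X k * (X j * (X i * C (6 * tens F i j k))) := by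
          refine Finset.sum_congr rfl fun k _ => ?_
          rw [pderiv1_eq hF, Finset.mul_sum]
          refine Finset.sum_congr rfl fun j _ => ?_
          rw [Finset.mul_sum, Finset.mul_sum]
      _ = ∑ i, ∑ j, ∑ k, X k * (X j * (X i * C (6 * tens F i j k))) :=
          sum3_perm (fun i j k => X k * (X j * (X i * C (6 * tens F i j k))))
      _ = 6 * tri (tens F) X X X := by
          simp only [tri, Finset.mul_sum]
          refine Finset.sum_congr rfl fun i _ => Finset.sum_congr rfl fun j _ =>
            Finset.sum_congr rfl fun k _ => ?_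
          rw [smul_eq_C_mul, map_mul]
          have : (C (6 : ℂ) : MvPolynomial ι ℂ) = 6 := map_ofNat C 6
          rw [this]
          ring
  exact mul_left_cancel₀ (by norm_num) key

theorem aeval_eq_tri {F : MvPolynomial ι ℂ} (hF : F.IsHomogeneous 3) {A : Type} [CommRing A]
    [Algebra ℂ A] (x : ι → A) : aeval x F = tri (tens F) x x x := by
  conv_lhs => rw [eq_tri hF]
  rw [map_tri]
  simp

theorem eval_eq_tri {F : MvPolynomial ι ℂ} (hF : F.IsHomogeneous 3) (x : ι → ℂ) :
    eval x F = tri (tens F) x x x := by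
  rw [← aeval_eq_tri hF, aeval_def]; rfl

/-- The derivative of the cubic form. -/
theorem sum_eval_pderiv {F : MvPolynomial ι ℂ} (hF : F.IsHomogeneous 3) (x v : ι → ℂ) :
    ∑ k, eval x (pderiv k F) * v k = 3 * tri (tens F) x x v := by
  have h : ∀ k, 2 * eval x (pderiv k F) = ∑ j, ∑ i, x j * (x i * (6 * tens F i j k)) := by
    intro k
    have := congrArg (eval x) (pderiv1_eq hF k)
    simp only [map_mul, map_sum, eval_X, eval_C, map_ofNat] at this
    rw [this]
    exact Finset.sum_congr rfl fun j _ => by rw [Finset.mul_sum]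
  have key : (2 : ℂ) * ∑ k, eval x (pderiv k F) * v k = 2 * (3 * tri (tens F) x x v) := by
    calc (2 : ℂ) * ∑ k, eval x (pderiv k F) * v k = ∑ k, (2 * eval x (pderiv k F)) * v k := by
          rw [Finset.mul_sum]; exact Finset.sum_congr rfl fun k _ => by ring
      _ = ∑ k, ∑ j, ∑ i, x j * (x i * (6 * tens F i j k)) * v k := by
          refine Finset.sum_congr rfl fun k _ => ?_
          rw [h k, Finset.sum_mul]
          exact Finset.sum_congr rfl fun j _ => by rw [Finset.sum_mul]
      _ = ∑ i, ∑ j, ∑ k, x j * (x i * (6 * tens F i j k)) * v k :=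
          sum3_perm (fun i j k => x j * (x i * (6 * tens F i j k)) * v k)
      _ = _ := by
          simp only [tri, Finset.mul_sum]
          refine Finset.sum_congr rfl fun i _ => Finset.sum_congr rfl fun j _ =>
            Finset.sum_congr rfl fun k _ => ?_
          rw [smul_eq_mul]
          ring
  exact mul_left_cancel₀ (by norm_num) key

end Vale.Agent.P287.H664
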