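import Vale.Agent.P287.H664.Defs
import Vale.Agent.P287.H664.Tri
import Vale.Agent.P287.H664.Skew

/-!
The equation of a smooth cubic fourfold is irreducible.
-/

set_option linter.unusedSimpArgs false
set_option linter.unusedSectionVars false

namespace Vale.Agent.P287.H664

open MvPolynomial

/-- The trilinear form of a cubic form as an `STri`. -/
noncomputable def triS (F : MvPolynomial (Fin 6) ℂ) : STri (Fin 6 → ℂ) where
  f := tri (tens F)
  add := tri_add₁ _
  smul := tri_smul₁ _
  c12 := tri_comm₁₂ (tens_sym F)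
  c23 := tri_comm₂₃ (tens_sym F)

theorem triS_smooth {F : MvPolynomial (Fin 6) ℂ} (hF : IsSmoothCubicFourfold F) :
    (triS F).Smooth := by
  intro x hx
  by_contra hcon
  push Not at hcon
  apply hx
  apply hF.2
  intro i
  have h := sum_eval_pderiv hF.1 x (Pi.single i 1)
  have h2 : (tri (tens F) x x (Pi.single i 1) : ℂ) = 0 := hcon _
  rw [h2, mul_zero] at h
  simpa [Pi.single_apply] using h

theorem triS_eval {F : MvPolynomial (Fin 6) ℂ} (hF : F.IsHomogeneous 3) (x : Fin 6 → ℂ) :
    eval x F = (triS F).f x x x := eval_eq_tri hF x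

namespace STri

variable {V : Type} [AddCommGroup V] [Module ℂ V] (Φ : STri V)

theorem cube_comb (a b : ℂ) (x y : V) :
    Φ.f (a • x + b • y) (a • x + b • y) (a • x + b • y) =
      a ^ 3 * Φ.f x x x + 3 * a ^ 2 * b * Φ.f x x y + 3 * a * b ^ 2 * Φ.f x y y
        + b ^ 3 * Φ.f y y y := by
  simp only [Φ.add, Φ.add2, Φ.add3, Φ.smul, Φ.smul2, Φ.smul3, Φ.q1 x y, Φ.q2 x y, Φ.q3 x y,
    Φ.q4 x y]
  ring

/-- Polarisation. -/
theorem polar2 {W : Submodule ℂ V} (h : ∀ x ∈ W, Φ.f x x x = 0) {x y : V} (hx : x ∈ W)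
    (hy : y ∈ W) : Φ.f x x y = 0 := by
  have h1 := h (1 • x + (1 : ℂ) • y) (W.add_mem (W.smul_mem _ hx) (W.smul_mem _ hy))
  have h2 := h ((1 : ℂ) • x + (-1 : ℂ) • y) (W.add_mem (W.smul_mem _ hx) (W.smul_mem _ hy))
  rw [← one_smul ℂ x] at h1
  have hx0 := h x hx
  have hy0 := h y hy
  have h1' := h ((1 : ℂ) • x + (1 : ℂ) • y) (W.add_mem (W.smul_mem _ hx) (W.smul_mem _ hy))
  rw [Φ.cube_comb, hx0, hy0] at h1' h2
  linear_combination (1 / 6) * h1' - (1 / 6) * h2

theorem polar3 {W : Submodule ℂ V} (h : ∀ x ∈ W, Φ.f x x x = 0) {x y z : V} (hx : x ∈ W)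
    (hy : y ∈ W) (hz : z ∈ W) : Φ.f x y z = 0 := by
  have h1 := Φ.polar2 h (W.add_mem hx hy) hz
  have h2 := Φ.polar2 h hx hz
  have h3 := Φ.polar2 h hy hz
  simp only [Φ.add, Φ.add2, h2, h3, Φ.t2 x y z] at h1
  linear_combination (1 / 2) * h1

/-- A smooth cubic does not contain a hyperplane. -/
theorem no_hyperplane (hS : Φ.Smooth) {W : Submodule ℂ V} (h : ∀ x ∈ W, Φ.f x x x = 0)
    {e : V} (he : ∀ v : V, ∃ w ∈ W, ∃ c : ℂ, v = w + c • e) {w₁ w₂ : V} (h1 : w₁ ∈ W)
    (h2 : w₂ ∈ W) (hind : ∀ a b : ℂ, a • w₁ + b • w₂ = 0 → a = 0 ∧ b = 0) : False := by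
  obtain ⟨s, t, hst, hq⟩ := quad_zero (Φ.f w₁ w₁ e) (2 * Φ.f w₁ w₂ e) (Φ.f w₂ w₂ e)
  have hw : s • w₁ + t • w₂ ∈ W := W.add_mem (W.smul_mem _ h1) (W.smul_mem _ h2)
  obtain ⟨y, hy⟩ := hS (s • w₁ + t • w₂) (by
    intro h0
    have := hind s t h0
    rcases hst with h | h
    · exact h this.1
    · exact h this.2)
  apply hy
  obtain ⟨w, hwW, c, rfl⟩ := he y
  rw [Φ.add3, Φ.smul3, Φ.polar2 h hw hwW]
  simp only [Φ.add, Φ.add2, Φ.smul, Φ.smul2, Φ.t2 w₁ w₂ e]
  linear_combination c * hq

end STri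

/-- scaling of homogeneous polynomials -/
theorem aeval_smul_hom {σ : Type} {A : Type} [CommRing A] [Algebra ℂ A] {G : MvPolynomial σ ℂ}
    {N : ℕ} (hG : G.IsHomogeneous N) (c : A) (x : σ → A) :
    aeval (c • x) G = c ^ N * aeval x G := by
  rw [aeval_def, aeval_def, eval₂_eq, eval₂_eq, Finset.mul_sum]
  refine Finset.sum_congr rfl fun d hd => ?_
  have hdeg : ∑ i ∈ d.support, d i = N := by
    have := hG (mem_support_iff.1 hd)
    simpa [Finsupp.weight_apply, Finsupp.sum] using this
  simp only [Pi.smul_apply, smul_eq_mul, mul_pow, Finset.prod_mul_distrib,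
    Finset.prod_pow_eq_pow_sum, hdeg]
  ring

theorem eval_smul_hom {σ : Type} {G : MvPolynomial σ ℂ}
    {N : ℕ} (hG : G.IsHomogeneous N) (c : ℂ) (x : σ → ℂ) :
    eval (c • x) G = c ^ N * eval x G := by
  have := aeval_smul_hom (A := ℂ) hG c x
  exact this

theorem smooth_ne_zero {F : MvPolynomial (Fin 6) ℂ} (hF : IsSmoothCubicFourfold F) : F ≠ 0 := by
  rintro rfl
  have := hF.2 (fun _ => 1) (by simp)
  exact one_ne_zero (congrFun this 0)

theorem no_linear_factor {F G H : MvPolynomial (Fin 6) ℂ} (hF : IsSmoothCubicFourfold F)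
    (hFGH : F = G * H) (hG : G.totalDegree = 1) : False := by
  have hF0 := smooth_ne_zero hF
  set g0 := coeff 0 G with hg0
  set ℓ := homogeneousComponent 1 G with hℓ
  have hG' : G = C g0 + ℓ := by
    have := sum_homogeneousComponent G
    rw [hG] at this
    rw [← this, Finset.sum_range_succ, Finset.sum_range_one, homogeneousComponent_zero]
  have hℓh : ℓ.IsHomogeneous 1 := homogeneousComponent_isHomogeneous 1 G
  have hℓ0 : ℓ ≠ 0 := by
    intro h0
    rw [h0, add_zero] at hG'
    rw [hG'] at hG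
    simp at hG
  by_cases hg : g0 = 0
  · rw [hg, map_zero, zero_add] at hG'
    -- the linear functional
    let L : (Fin 6 → ℂ) →ₗ[ℂ] ℂ := ∑ k, (coeff 0 (pderiv k ℓ)) • LinearMap.proj k
    have hL : ∀ x, L x = eval x ℓ := by
      intro x
      have e := hℓh.sum_X_mul_pderiv
      rw [one_smul] at e
      have e2 := congrArg (eval x) e
      rw [← e2, map_sum]
      simp only [L, LinearMap.sum_apply, LinearMap.smul_apply, LinearMap.proj_apply, smul_eq_mul]
      refine Finset.sum_congr rfl fun k _ => ?_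
      have h0 : (pderiv k ℓ).IsHomogeneous 0 := hℓh.pderiv
      rw [map_mul, eval_X]
      conv_rhs => rw [eq_C_of_hom0 h0]
      rw [eval_C, mul_comm]
    have hL0 : L ≠ 0 := by
      intro h
      apply hℓ0
      apply MvPolynomial.funext
      intro x
      rw [← hL, h]; simp
    obtain ⟨e, he⟩ : ∃ e, L e ≠ 0 := by
      by_contra hcon
      push Not at hcon
      exact hL0 (LinearMap.ext hcon)
    have hrk : Module.finrank ℂ (LinearMap.ker L) = 5 := by
      have h1 := LinearMap.finrank_range_add_finrank_ker L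
      have h2 : LinearMap.range L = ⊤ := by
        rw [LinearMap.range_eq_top]
        intro c
        exact ⟨(c / L e) • e, by simp [he]⟩
      rw [h2, finrank_top] at h1
      simp at h1
      omega
    obtain ⟨b⟩ : Nonempty (Module.Basis (Fin 5) ℂ (LinearMap.ker L)) :=
      ⟨Module.finBasisOfFinrankEq ℂ _ hrk⟩
    refine (triS F).no_hyperplane (triS_smooth hF) (W := LinearMap.ker L) (e := e) ?_ ?_
      (w₁ := (b 0 : Fin 6 → ℂ)) (w₂ := (b 1 : Fin 6 → ℂ)) (b 0).2 (b 1).2 ?_
    · intro x hx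
      rw [← triS_eval hF.1, hFGH, hG', map_mul, ← hL, LinearMap.mem_ker.1 hx, zero_mul]
    · intro v
      refine ⟨v - (L v / L e) • e, ?_, L v / L e, by simp⟩
      rw [LinearMap.mem_ker, map_sub, map_smul, smul_eq_mul, div_mul_cancel₀ _ he, sub_self]
    · intro a c hac
      have hac' : a • b 0 + c • b 1 = 0 := Subtype.ext (by simpa using hac)
      have hli := b.linearIndependent
      rw [Fintype.linearIndependent_iff] at hli
      have := hli ![a, c, 0, 0, 0] (by
        simp only [Fin.sum_univ_five]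
        simpa using hac')
      exact ⟨by simpa using this 0, by simpa using this 1⟩
  · -- `F` vanishes wherever `ℓ` does not
    have key : F * ℓ = 0 := by
      apply MvPolynomial.funext
      intro x
      rw [map_mul, map_zero]
      by_cases hx : eval x ℓ = 0
      · rw [hx, mul_zero]
      · have ht : eval ((-g0 / eval x ℓ) • x) F = 0 := by
          rw [hFGH, map_mul, hG', map_add, eval_C, eval_smul_hom hℓh, pow_one,
            div_mul_cancel₀ _ hx]
          ring
        rw [eval_smul_hom hF.1] at ht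
        have h3 : (-g0 / eval x ℓ) ^ 3 ≠ 0 := pow_ne_zero 3 (div_ne_zero (neg_ne_zero.2 hg) hx)
        rw [(mul_eq_zero.1 ht).resolve_left h3, zero_mul]
    exact (mul_ne_zero hF0 hℓ0) key

theorem isUnit_of_totalDegree_zero {σ : Type} {G : MvPolynomial σ ℂ} (hG0 : G ≠ 0)
    (h : G.totalDegree = 0) : IsUnit G := by
  rw [totalDegree_eq_zero_iff_eq_C] at h
  rw [h]
  apply IsUnit.map
  rw [isUnit_iff_ne_zero]
  intro h0
  rw [h0, map_zero] at h
  exact hG0 h

/-- The equation of a smooth cubic fourfold is a prime polynomial. -/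
theorem smooth_prime {F : MvPolynomial (Fin 6) ℂ} (hF : IsSmoothCubicFourfold F) : Prime F := by
  rw [← irreducible_iff_prime]
  have hF0 := smooth_ne_zero hF
  have hd : F.totalDegree = 3 := hF.1.totalDegree hF0
  constructor
  · intro hu
    obtain ⟨G, hG⟩ := hu.exists_right_inv
    have hG0 : G ≠ 0 := by rintro rfl; simp at hG
    have := totalDegree_mul_of_isDomain hF0 hG0
    rw [hG, totalDegree_one] at this
    omega
  · intro G H hGH
    have hG0 : G ≠ 0 := by rintro rfl; simp at hGH; exact hF0 hGH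
    have hH0 : H ≠ 0 := by rintro rfl; simp at hGH; exact hF0 hGH
    have h3 := totalDegree_mul_of_isDomain hG0 hH0
    rw [← hGH, hd] at h3
    by_cases h0 : G.totalDegree = 0
    · exact Or.inl (isUnit_of_totalDegree_zero hG0 h0)
    · by_cases h0' : H.totalDegree = 0
      · exact Or.inr (isUnit_of_totalDegree_zero hH0 h0')
      · exfalso
        by_cases h1 : G.totalDegree = 1
        · exact no_linear_factor hF hGH h1
        · exact no_linear_factor hF (hGH.trans (mul_comm _ _)) (by omega)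

end Vale.Agent.P287.H664
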