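import Vale.Agent.P287.H664.Tri

/-!
A line on the generic cubic surface of the pencil joining the Fermat cubic to a given cubic.
-/

set_option linter.unusedSimpArgs false
set_option linter.unusedSectionVars false

namespace Vale.Agent.P287.H664

open Polynomial

/-- The tensor of the Fermat cubic surface. -/
def fer (i j k : Fin 4) : ℂ := if i = j ∧ j = k then 1 else 0

theorem fer_sym : Sym fer := by
  intro i j k
  unfold fer
  constructor
  · congr 1
    simp only [eq_iff_iff]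
    constructor
    · rintro ⟨rfl, rfl⟩; exact ⟨rfl, rfl⟩
    · rintro ⟨rfl, rfl⟩; exact ⟨rfl, rfl⟩
  · congr 1
    simp only [eq_iff_iff]
    constructor
    · rintro ⟨rfl, rfl⟩; exact ⟨rfl, rfl⟩
    · rintro ⟨rfl, rfl⟩; exact ⟨rfl, rfl⟩

section
variable {A B : Type} [CommRing A] [Algebra ℂ A] [CommRing B] [Algebra ℂ B]

theorem tri_fer (x y z : Fin 4 → A) : tri fer x y z = ∑ i, x i * y i * z i := by
  unfold tri fer
  refine Finset.sum_congr rfl fun i _ => ?_
  rw [Finset.sum_eq_single i]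
  · rw [Finset.sum_eq_single i]
    · simp
    · intro k _ hk; simp [Ne.symm hk]
    · simp
  · intro j _ hj
    exact Finset.sum_eq_zero fun k _ => by simp [Ne.symm hj]
  · simp

/-- The trilinear form of the pencil. -/
def pen (φ : Fin 4 → Fin 4 → Fin 4 → ℂ) (t : A) (x y z : Fin 4 → A) : A :=
  tri fer x y z + t * (tri φ x y z - tri fer x y z)

theorem map_pen (φ : Fin 4 → Fin 4 → Fin 4 → ℂ) (f : A →ₐ[ℂ] B) (t : A) (x y z : Fin 4 → A) :
    f (pen φ t x y z) = pen φ (f t) (fun i => f (x i)) (fun i => f (y i)) (fun i => f (z i)) := by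
  simp only [pen, map_add, map_mul, map_sub, map_tri]

variable {φ : Fin 4 → Fin 4 → Fin 4 → ℂ}

theorem pen_comb (h : Sym φ) (t : A) (a b c d e g : A) (x y : Fin 4 → A) :
    pen φ t (a • x + b • y) (c • x + d • y) (e • x + g • y) =
      a * c * e * pen φ t x x x + (a * c * g + a * d * e + b * c * e) * pen φ t x x y
      + (a * d * g + b * c * g + b * d * e) * pen φ t x y y + b * d * g * pen φ t y y y := by
  have key : ∀ (χ : Fin 4 → Fin 4 → Fin 4 → ℂ), Sym χ →
      tri χ (a • x + b • y) (c • x + d • y) (e • x + g • y) =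
      a * c * e * tri χ x x x + (a * c * g + a * d * e + b * c * e) * tri χ x x y
      + (a * d * g + b * c * g + b * d * e) * tri χ x y y + b * d * g * tri χ y y y := by
    intro χ hχ
    have e1 : tri χ x y x = tri χ x x y := tri_comm₂₃ hχ _ _ _
    have e2 : tri χ y x x = tri χ x x y := by rw [tri_comm₁₂ hχ, e1]
    have e3 : tri χ y x y = tri χ x y y := tri_comm₁₂ hχ _ _ _
    have e4 : tri χ y y x = tri χ x y y := by rw [tri_comm₂₃ hχ, e3]
    simp only [tri_add₁, tri_add₂, tri_add₃, tri_smul₁, tri_smul₂, tri_smul₃, e1, e2, e3, e4]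
    ring
  unfold pen
  rw [key φ h, key fer fer_sym]
  ring

/-- first spanning vector of the line -/
def xv (u : Fin 4 → A) : Fin 4 → A := ![1, -1 + u 0, 0, u 1]
/-- second spanning vector of the line -/
def yv (u : Fin 4 → A) : Fin 4 → A := ![0, u 2, 1, -1 + u 3]

theorem map_xv (f : A →ₐ[ℂ] B) (u : Fin 4 → A) :
    (fun i => f (xv u i)) = xv (fun i => f (u i)) := by
  funext i; fin_cases i <;> simp [xv]

theorem map_yv (f : A →ₐ[ℂ] B) (u : Fin 4 → A) :
    (fun i => f (yv u i)) = yv (fun i => f (u i)) := by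
  funext i; fin_cases i <;> simp [yv]

end

/-- one Newton step, divisibility form -/
theorem step_aux {n : ℕ} {E ε δ ρ : ℂ[X]} {E' : ℂ[X]} (h : E = X ^ (n + 1) * ε)
    (hE' : E' = E + X ^ (n + 1) * δ + X ^ (n + 1) * (X ^ (n + 1) * ρ))
    (h0 : (ε + δ).eval 0 = 0) : X ^ (n + 1 + 1) ∣ E' := by
  have h1 : X ∣ ε + δ := by
    rw [Polynomial.X_dvd_iff, Polynomial.coeff_zero_eq_eval_zero, h0]
  obtain ⟨η, hη⟩ := h1
  refine ⟨η + X ^ n * ρ, ?_⟩
  rw [hE', h]
  calc X ^ (n + 1) * ε + X ^ (n + 1) * δ + X ^ (n + 1) * (X ^ (n + 1) * ρ)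
      = X ^ (n + 1) * (ε + δ) + X ^ (n + 1) * (X ^ (n + 1) * ρ) := by ring
    _ = _ := by rw [hη]; ring

theorem pen_eval0 (φ : Fin 4 → Fin 4 → Fin 4 → ℂ) (x y z : Fin 4 → ℂ[X]) :
    (pen φ X x y z).eval 0 =
      ∑ i, (x i).eval 0 * (y i).eval 0 * (z i).eval 0 := by
  have := map_pen φ (Polynomial.aeval (0 : ℂ)) X x y z
  have h2 : ∀ p : ℂ[X], Polynomial.aeval (0 : ℂ) p = p.eval 0 := fun p => by
    rw [Polynomial.aeval_def, Polynomial.eval₂_eq_eval_map]; simp
  simp only [h2] at this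
  rw [this]
  simp only [pen, eval_X, zero_mul, add_zero, tri_fer]

/-- Truncated solutions of all orders. -/
theorem exists_trunc (φ : Fin 4 → Fin 4 → Fin 4 → ℂ) (h : Sym φ) (n : ℕ) :
    ∃ u : Fin 4 → ℂ[X], (∀ i, (u i).eval 0 = 0) ∧
      (X : ℂ[X]) ^ (n + 1) ∣ pen φ (X : ℂ[X]) (xv u) (xv u) (xv u) ∧
      (X : ℂ[X]) ^ (n + 1) ∣ pen φ (X : ℂ[X]) (xv u) (xv u) (yv u) ∧
      (X : ℂ[X]) ^ (n + 1) ∣ pen φ (X : ℂ[X]) (xv u) (yv u) (yv u) ∧
      (X : ℂ[X]) ^ (n + 1) ∣ pen φ (X : ℂ[X]) (yv u) (yv u) (yv u) := by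
  induction n with
  | zero =>
    refine ⟨0, by simp, ?_, ?_, ?_, ?_⟩ <;>
    · rw [zero_add, pow_one, Polynomial.X_dvd_iff, Polynomial.coeff_zero_eq_eval_zero, pen_eval0]
      simp [Fin.sum_univ_four, xv, yv]
  | succ n ih =>
    obtain ⟨u, hu0, ⟨ε0, h0⟩, ⟨ε1, h1⟩, ⟨ε2, h2⟩, ⟨ε3, h3⟩⟩ := ih
    let a : Fin 4 → ℂ := ![-(ε0.eval 0) / 3, -(ε2.eval 0), -(ε1.eval 0), -(ε3.eval 0) / 3]
    let dx : Fin 4 → ℂ[X] := ![0, C (a 0), 0, C (a 1)]
    let dy : Fin 4 → ℂ[X] := ![0, C (a 2), 0, C (a 3)]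
    let u' : Fin 4 → ℂ[X] := fun i => u i + X ^ (n + 1) * C (a i)
    have hx : xv u' = (1 : ℂ[X]) • xv u + ((X : ℂ[X]) ^ (n + 1)) • dx := by
      funext i; fin_cases i <;> simp [xv, dx, u'] <;> ring
    have hy : yv u' = (1 : ℂ[X]) • yv u + ((X : ℂ[X]) ^ (n + 1)) • dy := by
      funext i; fin_cases i <;> simp [yv, dy, u'] <;> ring
    have symm : ∀ (t : ℂ[X]) (x y z : Fin 4 → ℂ[X]), pen φ t x y z = pen φ t y x z ∧
        pen φ t x y z = pen φ t x z y := by
      intro t x y z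
      unfold pen
      exact ⟨by rw [tri_comm₁₂ h x y z, tri_comm₁₂ fer_sym x y z],
        by rw [tri_comm₂₃ h x y z, tri_comm₂₃ fer_sym x y z]⟩
    have add1 : ∀ (t : ℂ[X]) (x x' y z : Fin 4 → ℂ[X]), pen φ t (x + x') y z =
        pen φ t x y z + pen φ t x' y z := by
      intro t x x' y z; unfold pen; rw [tri_add₁, tri_add₁]; ring
    have add2 : ∀ (t : ℂ[X]) (x x' y z : Fin 4 → ℂ[X]), pen φ t y (x + x') z =
        pen φ t y x z + pen φ t y x' z := by
      intro t x x' y z; unfold pen; rw [tri_add₂, tri_add₂]; ring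
    have add3 : ∀ (t : ℂ[X]) (x x' y z : Fin 4 → ℂ[X]), pen φ t y z (x + x') =
        pen φ t y z x + pen φ t y z x' := by
      intro t x x' y z; unfold pen; rw [tri_add₃, tri_add₃]; ring
    have sm1 : ∀ (t a : ℂ[X]) (x y z : Fin 4 → ℂ[X]), pen φ t (a • x) y z = a * pen φ t x y z := by
      intro t a x y z; unfold pen; rw [tri_smul₁, tri_smul₁]; ring
    have sm2 : ∀ (t a : ℂ[X]) (x y z : Fin 4 → ℂ[X]), pen φ t x (a • y) z = a * pen φ t x y z := by
      intro t a x y z; unfold pen; rw [tri_smul₂, tri_smul₂]; ring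
    have sm3 : ∀ (t a : ℂ[X]) (x y z : Fin 4 → ℂ[X]), pen φ t x y (a • z) = a * pen φ t x y z := by
      intro t a x y z; unfold pen; rw [tri_smul₃, tri_smul₃]; ring
    have X0 : ∀ i, (xv u i).eval 0 = (![1, -1, 0, 0] : Fin 4 → ℂ) i := by
      intro i; fin_cases i <;> simp [xv, hu0]
    have Y0 : ∀ i, (yv u i).eval 0 = (![0, 0, 1, -1] : Fin 4 → ℂ) i := by
      intro i; fin_cases i <;> simp [yv, hu0]
    have DX : ∀ i, (dx i).eval 0 = (![0, a 0, 0, a 1] : Fin 4 → ℂ) i := by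
      intro i; fin_cases i <;> simp [dx]
    have DY : ∀ i, (dy i).eval 0 = (![0, a 2, 0, a 3] : Fin 4 → ℂ) i := by
      intro i; fin_cases i <;> simp [dy]
    refine ⟨u', ?_, ?_, ?_, ?_, ?_⟩
    · intro i; simp [u', hu0]
    · refine step_aux (δ := pen φ X (xv u) (xv u) dx + pen φ X (xv u) dx (xv u)
        + pen φ X dx (xv u) (xv u))
        (ρ := pen φ X (xv u) dx dx + pen φ X dx (xv u) dx + pen φ X dx dx (xv u)
        + X ^ (n + 1) * pen φ X dx dx dx) h0 ?_ ?_
      · rw [hx]; simp only [one_smul, add1, add2, add3, sm1, sm2, sm3]; ring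
      · simp only [eval_add, pen_eval0, X0, Y0, DX, DY, Fin.sum_univ_four]
        simp [a]; ring
    · refine step_aux (δ := pen φ X (xv u) (xv u) dy + pen φ X (xv u) dx (yv u)
        + pen φ X dx (xv u) (yv u))
        (ρ := pen φ X (xv u) dx dy + pen φ X dx (xv u) dy + pen φ X dx dx (yv u)
        + X ^ (n + 1) * pen φ X dx dx dy) h1 ?_ ?_
      · rw [hx, hy]; simp only [one_smul, add1, add2, add3, sm1, sm2, sm3]; ring
      · simp only [eval_add, pen_eval0, X0, Y0, DX, DY, Fin.sum_univ_four]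
        simp [a]
    · refine step_aux (δ := pen φ X (xv u) (yv u) dy + pen φ X (xv u) dy (yv u)
        + pen φ X dx (yv u) (yv u))
        (ρ := pen φ X (xv u) dy dy + pen φ X dx (yv u) dy + pen φ X dx dy (yv u)
        + X ^ (n + 1) * pen φ X dx dy dy) h2 ?_ ?_
      · rw [hx, hy]; simp only [one_smul, add1, add2, add3, sm1, sm2, sm3]; ring
      · simp only [eval_add, pen_eval0, X0, Y0, DX, DY, Fin.sum_univ_four]
        simp [a]
    · refine step_aux (δ := pen φ X (yv u) (yv u) dy + pen φ X (yv u) dy (yv u)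
        + pen φ X dy (yv u) (yv u))
        (ρ := pen φ X (yv u) dy dy + pen φ X dy (yv u) dy + pen φ X dy dy (yv u)
        + X ^ (n + 1) * pen φ X dy dy dy) h3 ?_ ?_
      · rw [hy]; simp only [one_smul, add1, add2, add3, sm1, sm2, sm3]; ring
      · simp only [eval_add, pen_eval0, X0, Y0, DX, DY, Fin.sum_univ_four]
        simp [a]; ring

end Vale.Agent.P287.H664
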