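import Vale.Agent.P287.H664.Line1

/-!
The generic member of the pencil joining the Fermat cubic surface to a given one has a line.
-/

set_option linter.unusedSimpArgs false
set_option linter.unusedSectionVars false

namespace Vale.Agent.P287.H664

open Polynomial

/-- polynomial ring used for the line -/
abbrev DD : Type := MvPolynomial (Fin 4) ℂ[X]

/-- the four equations -/
noncomputable def eqs (φ : Fin 4 → Fin 4 → Fin 4 → ℂ) : Fin 4 → DD :=
  ![pen φ (MvPolynomial.C X : DD) (xv MvPolynomial.X) (xv MvPolynomial.X) (xv MvPolynomial.X),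
    pen φ (MvPolynomial.C X : DD) (xv MvPolynomial.X) (xv MvPolynomial.X) (yv MvPolynomial.X),
    pen φ (MvPolynomial.C X : DD) (xv MvPolynomial.X) (yv MvPolynomial.X) (yv MvPolynomial.X),
    pen φ (MvPolynomial.C X : DD) (yv MvPolynomial.X) (yv MvPolynomial.X) (yv MvPolynomial.X)]

theorem map_eqs {A : Type} [CommRing A] [Algebra ℂ A] (φ : Fin 4 → Fin 4 → Fin 4 → ℂ)
    (f : DD →ₐ[ℂ] A) (t : A) (u : Fin 4 → A) (ht : f (MvPolynomial.C X) = t)
    (hu : ∀ i, f (MvPolynomial.X i) = u i) :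
    f (eqs φ 0) = pen φ t (xv u) (xv u) (xv u) ∧ f (eqs φ 1) = pen φ t (xv u) (xv u) (yv u) ∧
    f (eqs φ 2) = pen φ t (xv u) (yv u) (yv u) ∧ f (eqs φ 3) = pen φ t (yv u) (yv u) (yv u) := by
  have hu' : (fun i => f (MvPolynomial.X i)) = u := funext hu
  have e : ∀ x y z : Fin 4 → DD, f (pen φ (MvPolynomial.C X : DD) x y z) =
      pen φ t (fun i => f (x i)) (fun i => f (y i)) (fun i => f (z i)) := by
    intro x y z; rw [map_pen, ht]
  have ex : (fun i => f (xv (MvPolynomial.X : Fin 4 → DD) i)) = xv u := by rw [map_xv, hu']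
  have ey : (fun i => f (yv (MvPolynomial.X : Fin 4 → DD) i)) = yv u := by rw [map_yv, hu']
  refine ⟨?_, ?_, ?_, ?_⟩
  · show f (pen φ (MvPolynomial.C X : DD) _ _ _) = _
    rw [e, ex]
  · show f (pen φ (MvPolynomial.C X : DD) _ _ _) = _
    rw [e, ex, ey]
  · show f (pen φ (MvPolynomial.C X : DD) _ _ _) = _
    rw [e, ex, ey]
  · show f (pen φ (MvPolynomial.C X : DD) _ _ _) = _
    rw [e, ey]

theorem exists_prime (φ : Fin 4 → Fin 4 → Fin 4 → ℂ) (h : Sym φ) :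
    ∃ P : Ideal DD, P.IsPrime ∧ (∀ k, eqs φ k ∈ P) ∧
      ∀ f : ℂ[X], f ≠ 0 → (MvPolynomial.C f : DD) ∉ P := by
  let I : Ideal DD := Ideal.span (Set.range (eqs φ))
  let S : Submonoid DD := (nonZeroDivisors ℂ[X]).map (MvPolynomial.C : ℂ[X] →+* DD)
  have hdisj : Disjoint (I : Set DD) S := by
    rw [Set.disjoint_left]
    rintro _ hI ⟨f, hf, rfl⟩
    have hf0 : f ≠ 0 := nonZeroDivisors.ne_zero hf
    -- write `f = X ^ n * g`
    obtain ⟨n, g, hg, rfl⟩ : ∃ n g, ¬ (X : ℂ[X]) ∣ g ∧ f = X ^ n * g := by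
      obtain ⟨g, hg1, hg2⟩ := Polynomial.exists_eq_pow_rootMultiplicity_mul_and_not_dvd f hf0 0
      refine ⟨_, g, ?_, by simpa using hg1⟩
      simpa using hg2
    obtain ⟨u, hu0, h0, h1, h2, h3⟩ := exists_trunc φ h n
    let ev : DD →ₐ[ℂ[X]] ℂ[X] := MvPolynomial.aeval u
    let ev' : DD →ₐ[ℂ] ℂ[X] := ev.restrictScalars ℂ
    obtain ⟨m0, m1, m2, m3⟩ := map_eqs φ ev' X u (MvPolynomial.aeval_C u X)
      (fun i => MvPolynomial.aeval_X u i)
    have hle : I ≤ Ideal.comap ev.toRingHom (Ideal.span {(X : ℂ[X]) ^ (n + 1)}) := by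
      rw [Ideal.span_le]
      rintro _ ⟨k, rfl⟩
      show ev (eqs φ k) ∈ Ideal.span {(X : ℂ[X]) ^ (n + 1)}
      rw [Ideal.mem_span_singleton]
      have e : ev (eqs φ k) = ev' (eqs φ k) := rfl
      rw [e]
      fin_cases k
      · exact m0 ▸ h0
      · exact m1 ▸ h1
      · exact m2 ▸ h2
      · exact m3 ▸ h3
    have hmem := hle hI
    rw [Ideal.mem_comap, Ideal.mem_span_singleton] at hmem
    have e2 : ev.toRingHom (MvPolynomial.C (X ^ n * g)) = X ^ n * g :=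
      MvPolynomial.aeval_C u (X ^ n * g)
    rw [e2, pow_succ] at hmem
    exact hg ((mul_dvd_mul_iff_left (pow_ne_zero n X_ne_zero)).1 hmem)
  obtain ⟨P, hP, hIP, hPS⟩ := Ideal.exists_le_prime_disjoint I S hdisj
  refine ⟨P, hP, fun k => hIP (Ideal.subset_span ⟨k, rfl⟩), fun f hf hfP => ?_⟩
  exact Set.disjoint_left.1 hPS hfP ⟨f, mem_nonZeroDivisors_of_ne_zero hf, rfl⟩

theorem exists_frac {R : Type} [CommRing R] [Algebra ℂ R] (P : Ideal R) (hP : P.IsPrime) :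
    ∃ (K : Type) (_ : Field K) (_ : Algebra ℂ K) (π : R →ₐ[ℂ] K), ∀ d, π d = 0 ↔ d ∈ P := by
  have := hP
  let π : R →ₐ[ℂ] FractionRing (R ⧸ P) :=
    (IsScalarTower.toAlgHom ℂ (R ⧸ P) (FractionRing (R ⧸ P))).comp (Ideal.Quotient.mkₐ ℂ P)
  refine ⟨FractionRing (R ⧸ P), inferInstance, inferInstance, π, fun d => ?_⟩
  have e : π d = algebraMap (R ⧸ P) (FractionRing (R ⧸ P)) (Ideal.Quotient.mk P d) := by
    simp only [π, AlgHom.comp_apply, IsScalarTower.toAlgHom_apply, Ideal.Quotient.mkₐ_eq_mk]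
  rw [e, map_eq_zero_iff _ (IsFractionRing.injective (R ⧸ P) (FractionRing (R ⧸ P))),
    Ideal.Quotient.eq_zero_iff_mem]

/-- A field containing `ℂ[X]` over which the generic member of the pencil has a line. -/
theorem exists_field (φ : Fin 4 → Fin 4 → Fin 4 → ℂ) (h : Sym φ) :
    ∃ (K : Type) (_ : Field K) (_ : Algebra ℂ K) (ι : ℂ[X] →ₐ[ℂ] K),
      Function.Injective ι ∧ ∃ u : Fin 4 → K,
      pen φ (ι X) (xv u) (xv u) (xv u) = 0 ∧ pen φ (ι X) (xv u) (xv u) (yv u) = 0 ∧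
      pen φ (ι X) (xv u) (yv u) (yv u) = 0 ∧ pen φ (ι X) (yv u) (yv u) (yv u) = 0 := by
  obtain ⟨P, hP, hE, hC⟩ := exists_prime φ h
  obtain ⟨K, _, _, π, hπ⟩ := exists_frac P hP
  let ι : ℂ[X] →ₐ[ℂ] K := π.comp (IsScalarTower.toAlgHom ℂ ℂ[X] DD)
  have hι : ∀ f, ι f = π (MvPolynomial.C f) := fun f => by
    simp only [ι, AlgHom.comp_apply, IsScalarTower.toAlgHom_apply]; rfl
  refine ⟨K, inferInstance, inferInstance, ι, ?_, fun i => π (MvPolynomial.X i), ?_⟩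
  · rw [injective_iff_map_eq_zero]
    intro f hf
    rw [hι, hπ] at hf
    by_contra hf0
    exact hC f hf0 hf
  · have hG : ∀ k, π (eqs φ k) = 0 := fun k => (hπ _).2 (hE k)
    obtain ⟨m0, m1, m2, m3⟩ := map_eqs φ π (ι X) (fun i => π (MvPolynomial.X i)) (hι X).symm
      (fun i => rfl)
    exact ⟨m0 ▸ hG 0, m1 ▸ hG 1, m2 ▸ hG 2, m3 ▸ hG 3⟩

end Vale.Agent.P287.H664
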