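import Vale.Agent.P287.H664.Rational

/-!
A smooth cubic fourfold containing two disjoint planes is rational.
-/

set_option linter.unusedSimpArgs false
set_option linter.unusedSectionVars false

namespace Vale.Agent.P287.H664

open MvPolynomial

section frame

variable (c B : Fin 3 ⊕ Fin 3 → Fin 6 → ℂ)

/-- coordinate forms -/
noncomputable def coordForm (j : Fin 3 ⊕ Fin 3) : MvPolynomial (Fin 6) ℂ :=
  ∑ k, C (c j k) * X k

theorem coordForm_hom (j : Fin 3 ⊕ Fin 3) : (coordForm c j).IsHomogeneous 1 := by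
  apply IsHomogeneous.sum
  intro k _
  exact isHomogeneous_C_mul_X _ _

variable {c B}

theorem aeval_coordForm (h1 : ∀ j l, ∑ k, c j k * B l k = if j = l then 1 else 0)
    {A : Type} [CommRing A] [Algebra ℂ A] (s t : Fin 3 → A)
    (j : Fin 3 ⊕ Fin 3) :
    aeval (lin (fun i => B (Sum.inl i)) s + lin (fun i => B (Sum.inr i)) t) (coordForm c j) =
      Sum.elim s t j := by
  have key : ∀ l, ∑ k, algebraMap ℂ A (c j k) * algebraMap ℂ A (B l k) =
      if j = l then 1 else 0 := by
    intro l
    have h := congrArg (algebraMap ℂ A) (h1 j l)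
    rw [map_sum] at h
    calc _ = ∑ k, algebraMap ℂ A (c j k * B l k) :=
          Finset.sum_congr rfl fun k _ => by rw [map_mul]
      _ = algebraMap ℂ A (if j = l then 1 else 0) := h
      _ = _ := by split_ifs <;> simp
  have e0 : ∀ (α : Fin 3 → Fin 6 → ℂ) (u : Fin 3 → A),
      ∑ k, algebraMap ℂ A (c j k) * lin α u k =
        ∑ i, u i * ∑ k, algebraMap ℂ A (c j k) * algebraMap ℂ A (α i k) := by
    intro α u
    simp only [lin, Finset.mul_sum]
    rw [Finset.sum_comm]
    exact Finset.sum_congr rfl fun i _ => Finset.sum_congr rfl fun k _ => by ring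
  have e1 : aeval (lin (fun i => B (Sum.inl i)) s + lin (fun i => B (Sum.inr i)) t)
      (coordForm c j) = ∑ k, algebraMap ℂ A (c j k) * lin (fun i => B (Sum.inl i)) s k +
        ∑ k, algebraMap ℂ A (c j k) * lin (fun i => B (Sum.inr i)) t k := by
    rw [coordForm, map_sum, ← Finset.sum_add_distrib]
    refine Finset.sum_congr rfl fun k _ => ?_
    rw [map_mul, aeval_X, aeval_C, Pi.add_apply, mul_add]
  rw [e1, e0, e0]
  simp only [key]
  cases j with
  | inl j => simp
  | inr j => simp

theorem sum_coordForm (h2 : ∀ l k, ∑ j, c j l * B j k = if l = k then 1 else 0) (k : Fin 6) :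
    lin (fun i => B (Sum.inl i)) (fun i => coordForm c (Sum.inl i)) k +
        lin (fun i => B (Sum.inr i)) (fun i => coordForm c (Sum.inr i)) k =
      (X k : MvPolynomial (Fin 6) ℂ) := by
  have e0 : ∀ (f : Fin 3 → Fin 3 ⊕ Fin 3), lin (fun i => B (f i)) (fun i => coordForm c (f i)) k =
      ∑ l, C (∑ i, c (f i) l * B (f i) k) * X l := by
    intro f
    simp only [lin, coordForm, Finset.sum_mul, map_sum]
    rw [Finset.sum_comm]
    refine Finset.sum_congr rfl fun i _ => Finset.sum_congr rfl fun l _ => ?_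
    rw [algebraMap_eq, map_mul]
    ring
  rw [e0, e0, ← Finset.sum_add_distrib]
  have e1 : ∀ l, C (∑ i, c (Sum.inl i) l * B (Sum.inl i) k) * (X l : MvPolynomial (Fin 6) ℂ) +
      C (∑ i, c (Sum.inr i) l * B (Sum.inr i) k) * X l = if l = k then X l else 0 := by
    intro l
    rw [← add_mul, ← map_add]
    have := h2 l k
    rw [Fintype.sum_sum_type] at this
    rw [this]
    split_ifs <;> simp
  simp only [e1]
  simp

/-- the frame of a basis -/
noncomputable def frameOf (c B : Fin 3 ⊕ Fin 3 → Fin 6 → ℂ)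
    (h1 : ∀ j l, ∑ k, c j k * B l k = if j = l then 1 else 0)
    (h2 : ∀ l k, ∑ j, c j l * B j k = if l = k then 1 else 0) : Frame where
  α := fun i => B (Sum.inl i)
  β := fun i => B (Sum.inr i)
  m := fun i => coordForm c (Sum.inl i)
  n := fun i => coordForm c (Sum.inr i)
  hX := sum_coordForm h2
  hm := fun s t i => aeval_coordForm h1 s t (Sum.inl i)
  hn := fun s t i => aeval_coordForm h1 s t (Sum.inr i)

end frame

theorem exists_dual (b : Module.Basis (Fin 3 ⊕ Fin 3) ℂ (Fin 6 → ℂ)) :
    ∃ c : Fin 3 ⊕ Fin 3 → Fin 6 → ℂ,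
      (∀ j l, ∑ k, c j k * b l k = if j = l then 1 else 0) ∧
      (∀ l k, ∑ j, c j l * b j k = if l = k then 1 else 0) := by
  refine ⟨fun j k => b.repr (Pi.single k 1) j, ?_, ?_⟩
  · intro j l
    have h1 : b l = ∑ k, b l k • (Pi.single k 1 : Fin 6 → ℂ) := by
      funext m
      simp [Finset.sum_apply, Pi.single_apply]
    have h2 : b.repr (b l) j = ∑ k, b l k * b.repr (Pi.single k 1) j := by
      conv_lhs => rw [h1]
      rw [map_sum, Finsupp.finsetSum_apply]
      exact Finset.sum_congr rfl fun k _ => by rw [map_smul, Finsupp.smul_apply, smul_eq_mul]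
    rw [b.repr_self, Finsupp.single_apply] at h2
    calc ∑ k, b.repr (Pi.single k 1) j * b l k = ∑ k, b l k * b.repr (Pi.single k 1) j :=
          Finset.sum_congr rfl fun k _ => mul_comm _ _
      _ = if l = j then 1 else 0 := h2.symm
      _ = _ := by simp only [eq_comm]
  · intro l k
    have h := congrFun (b.sum_repr (Pi.single l 1)) k
    rw [Finset.sum_apply] at h
    simp only [Pi.smul_apply, smul_eq_mul] at h
    rw [h]
    simp [Pi.single_apply, eq_comm]

/-- A smooth cubic fourfold containing two disjoint planes is rational (classical). -/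
theorem rational_of_two_planes {F : MvPolynomial (Fin 6) ℂ} (hF : IsSmoothCubicFourfold F)
    {U V : Submodule ℂ (Fin 6 → ℂ)} (hU : IsPlaneIn F U) (hV : IsPlaneIn F V)
    (hUV : U ⊓ V = ⊥) : IsRational F := by
  let bU := Module.finBasisOfFinrankEq ℂ U hU.1
  let bV := Module.finBasisOfFinrankEq ℂ V hV.1
  have hliU : LinearIndependent ℂ (fun i => (bU i : Fin 6 → ℂ)) :=
    bU.linearIndependent.map' U.subtype (Submodule.ker_subtype U)
  have hliV : LinearIndependent ℂ (fun i => (bV i : Fin 6 → ℂ)) :=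
    bV.linearIndependent.map' V.subtype (Submodule.ker_subtype V)
  have hspU : Submodule.span ℂ (Set.range fun i => (bU i : Fin 6 → ℂ)) ≤ U := by
    rw [Submodule.span_le]; rintro _ ⟨i, rfl⟩; exact (bU i).2
  have hspV : Submodule.span ℂ (Set.range fun i => (bV i : Fin 6 → ℂ)) ≤ V := by
    rw [Submodule.span_le]; rintro _ ⟨i, rfl⟩; exact (bV i).2
  have hli : LinearIndependent ℂ
      (Sum.elim (fun i => (bU i : Fin 6 → ℂ)) (fun i => (bV i : Fin 6 → ℂ))) :=
    hliU.sum_type hliV (Disjoint.mono hspU hspV (disjoint_iff.2 hUV))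
  let b : Module.Basis (Fin 3 ⊕ Fin 3) ℂ (Fin 6 → ℂ) :=
    basisOfLinearIndependentOfCardEqFinrank hli (by simp)
  have hb : ∀ j, b j = Sum.elim (fun i => (bU i : Fin 6 → ℂ)) (fun i => (bV i : Fin 6 → ℂ)) j := by
    intro j
    simp [b]
  obtain ⟨c, hc1, hc2⟩ := exists_dual b
  have hlin : ∀ (α : Fin 3 → Fin 6 → ℂ) (W : Submodule ℂ (Fin 6 → ℂ)), (∀ i, α i ∈ W) →
      ∀ s : Fin 3 → ℂ, lin α s ∈ W := by
    intro α W hα s
    have : lin α s = ∑ i, s i • α i := by
      funext k
      simp [lin, Finset.sum_apply]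
    rw [this]
    exact W.sum_mem fun i _ => W.smul_mem _ (hα i)
  let P : PlanePair F :=
    { frameOf c (fun j => b j) hc1 hc2 with
      hα := by
        intro s
        rw [← eval_eq_tri hF.1]
        refine hU.2 _ (hlin _ _ (fun i => ?_) s)
        show b (Sum.inl i) ∈ U
        rw [hb]; exact (bU i).2
      hβ := by
        intro s
        rw [← eval_eq_tri hF.1]
        refine hV.2 _ (hlin _ _ (fun i => ?_) s)
        show b (Sum.inr i) ∈ V
        rw [hb]; exact (bV i).2 }
  exact isRational_of_pair hF P ⟨fun i => coordForm_hom c _, fun i => coordForm_hom c _⟩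

end Vale.Agent.P287.H664
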