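import Vale.Agent.P287.H664.TwoPlanes

/-!
A smooth cubic fourfold with two disjoint planes is rational: the isomorphism of function fields.
-/

set_option linter.unusedSimpArgs false
set_option linter.unusedSectionVars false

namespace Vale.Agent.P287.H664

open MvPolynomial

/-- homogenisation with respect to `X i` -/
theorem exists_homog (i : Fin 6) (G : MvPolynomial (Fin 6) ℂ) :
    ∃ (N : ℕ) (G' : MvPolynomial (Fin 6) ℂ), G'.IsHomogeneous N ∧
      G' - G ∈ Ideal.span {(X i - 1 : MvPolynomial (Fin 6) ℂ)} := by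
  refine ⟨G.totalDegree, ∑ n ∈ Finset.range (G.totalDegree + 1),
    X i ^ (G.totalDegree - n) * homogeneousComponent n G, ?_, ?_⟩
  · apply IsHomogeneous.sum
    intro n hn
    have h1 : (X i ^ (G.totalDegree - n) : MvPolynomial (Fin 6) ℂ).IsHomogeneous
        (G.totalDegree - n) := isHomogeneous_X_pow i _
    have h2 := h1.mul (homogeneousComponent_isHomogeneous n G)
    rwa [Nat.sub_add_cancel (Nat.lt_succ_iff.1 (Finset.mem_range.1 hn))] at h2
  · have e : G = ∑ n ∈ Finset.range (G.totalDegree + 1), homogeneousComponent n G :=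
      (sum_homogeneousComponent G).symm
    have e2 : (∑ n ∈ Finset.range (G.totalDegree + 1),
        X i ^ (G.totalDegree - n) * homogeneousComponent n G) - G =
        ∑ n ∈ Finset.range (G.totalDegree + 1),
          (X i ^ (G.totalDegree - n) - 1) * homogeneousComponent n G := by
      conv_lhs => rw [sub_eq_add_neg]
      have : -G = ∑ n ∈ Finset.range (G.totalDegree + 1), -homogeneousComponent n G := by
        rw [Finset.sum_neg_distrib, ← e]
      rw [this, ← Finset.sum_add_distrib]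
      exact Finset.sum_congr rfl fun n _ => by ring
    rw [e2]
    apply Ideal.sum_mem
    intro n _
    apply Ideal.mul_mem_right
    rw [Ideal.mem_span_singleton]
    exact sub_one_dvd_pow_sub_one _ _

section main

variable {F : MvPolynomial (Fin 6) ℂ} (hF : IsSmoothCubicFourfold F) (P : PlanePair F)

include hF in
theorem not_dvd_of_hom {G : MvPolynomial (Fin 6) ℂ} (hG0 : G ≠ 0) (hd : G.totalDegree < 3) :
    ¬ F ∣ G := by
  rintro ⟨Q, hQ⟩
  have hQ0 : Q ≠ 0 := by rintro rfl; exact hG0 (by rw [hQ, mul_zero])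
  have h1 := totalDegree_mul_of_isDomain (smooth_ne_zero hF) hQ0
  rw [← hQ, hF.1.totalDegree (smooth_ne_zero hF)] at h1
  omega

include hF in
theorem pz_ne (i : Fin 6) : pz P i ≠ 0 := by
  intro h
  have h1 : aeval (pz P) (X i : MvPolynomial (Fin 6) ℂ) = 0 := by rw [aeval_X, h]
  have h2 := transfer hF P (isHomogeneous_X ℂ i) h1
  exact not_dvd_of_hom hF (X_ne_zero i) (by simp) h2

theorem tri_zero₁ {A : Type} [CommRing A] [Algebra ℂ A] (φ : Fin 6 → Fin 6 → Fin 6 → ℂ)
    (y z : Fin 6 → A) : tri φ 0 y z = 0 := by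
  have := tri_smul₁ φ (0 : A) 0 y z
  rwa [smul_zero, zero_mul] at this

/-- coordinates of `a` -/
theorem m_pz (i : Fin 3) : aeval (pz P) (P.m i) = cB P * xi i := by
  have e : pz P = lin P.α (cB P • xi) + lin P.β ((-cA P) • eta) := by
    rw [lin_smul, lin_smul]; rfl
  rw [e, P.hm]; rfl

theorem n_pz (i : Fin 3) : aeval (pz P) (P.n i) = -cA P * eta i := by
  have e : pz P = lin P.α (cB P • xi) + lin P.β ((-cA P) • eta) := by
    rw [lin_smul, lin_smul]; rfl
  rw [e, P.hn]; rfl

/-- the coordinate forms of a frame are homogeneous of degree one -/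
structure HomFrame (E : Frame) : Prop where
  hm : ∀ i, (E.m i).IsHomogeneous 1
  hn : ∀ i, (E.n i).IsHomogeneous 1

include hF in
theorem cB_ne (hE : HomFrame P.toFrame) : cB P ≠ 0 := by
  intro h
  have h1 : aeval (pz P) (P.m 0) = 0 := by rw [m_pz, h, zero_mul]
  exact not_dvd_of_hom hF (P.m0 0) (lt_of_le_of_lt (hE.hm 0).totalDegree_le (by norm_num))
    (transfer hF P (hE.hm 0) h1)

include hF in
theorem cA_ne (hE : HomFrame P.toFrame) : cA P ≠ 0 := by
  intro h
  have h1 : aeval (pz P) (P.n 0) = 0 := by rw [n_pz, h, neg_zero, zero_mul]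
  exact not_dvd_of_hom hF (P.n0 0) (lt_of_le_of_lt (hE.hn 0).totalDegree_le (by norm_num))
    (transfer hF P (hE.hn 0) h1)

/-- the field `ℂ(t₁,…,t₄)` -/
abbrev KK : Type := FractionRing (MvPolynomial (Fin 4) ℂ)

/-- embedding of polynomials -/
noncomputable def toK : MvPolynomial (Fin 4) ℂ →ₐ[ℂ] KK := IsScalarTower.toAlgHom ℂ _ _

theorem toK_inj : Function.Injective toK :=
  IsFractionRing.injective (MvPolynomial (Fin 4) ℂ) KK

/-- the universal point in the chart `x_i = 1` -/
noncomputable def psi0 (i : Fin 6) : MvPolynomial (Fin 6) ℂ →ₐ[ℂ] KK :=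
  aeval ((toK (pz P i))⁻¹ • fun k => toK (pz P k))

theorem psi0_hom (i : Fin 6) {G : MvPolynomial (Fin 6) ℂ} {N : ℕ} (hG : G.IsHomogeneous N) :
    psi0 P i G = (toK (pz P i))⁻¹ ^ N * toK (aeval (pz P) G) := by
  unfold psi0
  rw [aeval_smul_hom hG, alg_aeval]

include hF in
theorem ker_psi0 (i : Fin 6) (G : MvPolynomial (Fin 6) ℂ) :
    psi0 P i G = 0 ↔ G ∈ Ideal.span {F, (X i - 1 : MvPolynomial (Fin 6) ℂ)} := by
  have hz : toK (pz P i) ≠ 0 := fun h => pz_ne hF P i (toK_inj (by rw [h, map_zero]))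
  have h1 : psi0 P i (X i) = 1 := by
    simp [psi0, hz]
  have h2 : psi0 P i F = 0 := by
    rw [psi0_hom P i hF.1, aeval_eq_tri hF.1, tri_pz, map_zero, mul_zero]
  have h3 : ∀ H ∈ Ideal.span {(X i - 1 : MvPolynomial (Fin 6) ℂ)}, psi0 P i H = 0 := by
    intro H hH
    rw [Ideal.mem_span_singleton] at hH
    obtain ⟨Q, rfl⟩ := hH
    rw [map_mul, map_sub, map_one, h1, sub_self, zero_mul]
  constructor
  · intro h
    obtain ⟨N, G', hG', hGG⟩ := exists_homog i G
    have h4 : psi0 P i G' = 0 := by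
      have := h3 _ hGG
      rw [map_sub, h, sub_zero] at this
      exact this
    rw [psi0_hom P i hG'] at h4
    have h5 : aeval (pz P) G' = 0 := by
      rcases mul_eq_zero.1 h4 with h6 | h6
      · exact absurd h6 (pow_ne_zero _ (inv_ne_zero hz))
      · exact toK_inj (by rw [h6, map_zero])
    obtain ⟨Q, hQ⟩ := transfer hF P hG' h5
    have h6 : G = F * Q - (G' - G) := by rw [← hQ]; ring
    rw [h6]
    apply Ideal.sub_mem
    · exact Ideal.mul_mem_right _ _ (Ideal.subset_span (by simp))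
    · exact Ideal.span_mono (by simp) hGG
  · intro h
    rw [Ideal.mem_span_pair] at h
    obtain ⟨a, b, rfl⟩ := h
    rw [map_add, map_mul, map_mul, h2, map_sub, h1, map_one]
    ring

include hF in
theorem isRational_of_pair (hE : HomFrame P.toFrame) : IsRational F := by
  intro i
  have hz : toK (pz P i) ≠ 0 := fun h => pz_ne hF P i (toK_inj (by rw [h, map_zero]))
  let I : Ideal (MvPolynomial (Fin 6) ℂ) := Ideal.span {F, X i - 1}
  let ψ : (MvPolynomial (Fin 6) ℂ ⧸ I) →ₐ[ℂ] KK :=
    Ideal.Quotient.liftₐ I (psi0 P i) (fun G hG => (ker_psi0 hF P i G).2 hG)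
  have hψ : ∀ G, ψ (Ideal.Quotient.mk I G) = psi0 P i G := fun G => rfl
  have hinj : Function.Injective ψ := by
    rw [injective_iff_map_eq_zero]
    intro x hx
    obtain ⟨G, rfl⟩ := Ideal.Quotient.mk_surjective x
    rw [hψ, ker_psi0 hF] at hx
    exact Ideal.Quotient.eq_zero_iff_mem.2 hx
  have hdom : IsDomain (ChartRing F i) := hinj.isDomain ψ.toRingHom
  refine ⟨hdom, ?_⟩
  let Ψ : FractionRing (ChartRing F i) →ₐ[ℂ] KK := IsFractionRing.liftAlgHom hinj
  have hΨ : ∀ x, Ψ (algebraMap (ChartRing F i) (FractionRing (ChartRing F i)) x) = ψ x := by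
    intro x
    exact IsFractionRing.lift_algebraMap hinj x
  -- the range contains the variables
  have hrange : ∀ s : MvPolynomial (Fin 4) ℂ, ∃ y, Ψ y = toK s := by
    -- coordinate functions
    have hm : ∀ l, ∃ y, Ψ y = (toK (pz P i))⁻¹ * (toK (cB P) * toK (xi l)) := by
      intro l
      refine ⟨algebraMap _ _ (Ideal.Quotient.mk I (P.m l)), ?_⟩
      rw [hΨ, hψ, psi0_hom P i (hE.hm l), m_pz, map_mul, pow_one]
    have hn : ∀ l, ∃ y, Ψ y = (toK (pz P i))⁻¹ * (-toK (cA P) * toK (eta l)) := by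
      intro l
      refine ⟨algebraMap _ _ (Ideal.Quotient.mk I (P.n l)), ?_⟩
      rw [hΨ, hψ, psi0_hom P i (hE.hn l), n_pz, map_mul, map_neg, pow_one]
    have hcB : toK (cB P) ≠ 0 := fun h => cB_ne hF P hE (toK_inj (by rw [h, map_zero]))
    have hcA : toK (cA P) ≠ 0 := fun h => cA_ne hF P hE (toK_inj (by rw [h, map_zero]))
    obtain ⟨y0, hy0⟩ := hm 0
    obtain ⟨y0', hy0'⟩ := hn 0
    have e0 : toK (xi 0) = 1 := by simp [xi]
    have e0' : toK (eta 0) = 1 := by simp [eta]
    rw [e0] at hy0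
    rw [e0'] at hy0'
    have hxi : ∀ l, ∃ y, Ψ y = toK (xi l) := by
      intro l
      obtain ⟨y, hy⟩ := hm l
      refine ⟨y / y0, ?_⟩
      rw [map_div₀, hy, hy0]
      field_simp
    have heta : ∀ l, ∃ y, Ψ y = toK (eta l) := by
      intro l
      obtain ⟨y, hy⟩ := hn l
      refine ⟨y / y0', ?_⟩
      rw [map_div₀, hy, hy0']
      field_simp
    intro s
    induction s using MvPolynomial.induction_on with
    | C a => exact ⟨algebraMap ℂ _ a, by
        rw [AlgHom.commutes]
        exact (toK.commutes a).symm⟩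
    | add p q hp hq =>
      obtain ⟨y, hy⟩ := hp
      obtain ⟨y', hy'⟩ := hq
      exact ⟨y + y', by rw [map_add, map_add, hy, hy']⟩
    | mul_X p l hp =>
      obtain ⟨y, hy⟩ := hp
      obtain ⟨y', hy'⟩ : ∃ y, Ψ y = toK (X l) := by
        fin_cases l
        · exact hxi 1
        · exact hxi 2
        · exact heta 1
        · exact heta 2
      exact ⟨y * y', by rw [map_mul, map_mul, hy, hy']⟩
  have hsurj : Function.Surjective Ψ := by
    intro x
    obtain ⟨s, t, ht, rfl⟩ := IsFractionRing.div_surjective (A := MvPolynomial (Fin 4) ℂ) x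
    obtain ⟨y, hy⟩ := hrange s
    obtain ⟨y', hy'⟩ := hrange t
    exact ⟨y / y', by rw [map_div₀, hy, hy']; rfl⟩
  exact ⟨AlgEquiv.ofBijective Ψ ⟨Ψ.toRingHom.injective, hsurj⟩⟩

end main

end Vale.Agent.P287.H664
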