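import Vale.Agent.P287.H664.Irred

/-!
A smooth cubic fourfold with two disjoint planes is rational.
-/

set_option linter.unusedSimpArgs false
set_option linter.unusedSectionVars false

namespace Vale.Agent.P287.H664

open MvPolynomial

/-- linear combination of the vectors `α i` with coefficients in an algebra -/
def lin {A : Type} [CommRing A] [Algebra ℂ A] (α : Fin 3 → Fin 6 → ℂ) (s : Fin 3 → A) :
    Fin 6 → A := fun k => ∑ i, s i * algebraMap ℂ A (α i k)

theorem map_lin {A B : Type} [CommRing A] [Algebra ℂ A] [CommRing B] [Algebra ℂ B]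
    (f : A →ₐ[ℂ] B) (α : Fin 3 → Fin 6 → ℂ) (s : Fin 3 → A) :
    (fun k => f (lin α s k)) = lin α (fun i => f (s i)) := by
  funext k
  simp only [lin, map_sum, map_mul, AlgHom.commutes]

theorem alg_aeval {σ A B : Type} [CommRing A] [Algebra ℂ A] [CommRing B] [Algebra ℂ B]
    (f : A →ₐ[ℂ] B) (x : σ → A) (G : MvPolynomial σ ℂ) :
    f (aeval x G) = aeval (fun k => f (x k)) G := by
  have h : f.comp (aeval x) = aeval (fun k => f (x k)) := by
    ext k; simp
  rw [← h]; rfl

theorem lin_smul {A : Type} [CommRing A] [Algebra ℂ A] (α : Fin 3 → Fin 6 → ℂ) (c : A)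
    (s : Fin 3 → A) : lin α (c • s) = c • lin α s := by
  funext k
  simp only [lin, Pi.smul_apply, smul_eq_mul, Finset.mul_sum, mul_assoc]

theorem lin_iso {φ : Fin 6 → Fin 6 → Fin 6 → ℂ} {α : Fin 3 → Fin 6 → ℂ}
    (h : ∀ s : Fin 3 → ℂ, tri φ (lin α s) (lin α s) (lin α s) = 0)
    {A : Type} [CommRing A] [Algebra ℂ A] (s : Fin 3 → A) :
    tri φ (lin α s) (lin α s) (lin α s) = 0 := by
  have h0 : tri φ (lin α (X : Fin 3 → MvPolynomial (Fin 3) ℂ)) (lin α X) (lin α X) = 0 := by
    apply MvPolynomial.funext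
    intro x
    have := map_tri φ (aeval x : MvPolynomial (Fin 3) ℂ →ₐ[ℂ] ℂ) (lin α X) (lin α X) (lin α X)
    rw [map_lin] at this
    simp only [aeval_X] at this
    rw [h x] at this
    rw [map_zero]
    exact this
  have := map_tri φ (aeval s : MvPolynomial (Fin 3) ℂ →ₐ[ℂ] A) (lin α X) (lin α X) (lin α X)
  rw [map_lin, h0, map_zero] at this
  simp only [aeval_X] at this
  exact this.symm

/-- Two complementary families of vectors, with coordinate forms. -/
structure Frame where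
  α : Fin 3 → Fin 6 → ℂ
  β : Fin 3 → Fin 6 → ℂ
  m : Fin 3 → MvPolynomial (Fin 6) ℂ
  n : Fin 3 → MvPolynomial (Fin 6) ℂ
  hX : ∀ k, lin α m k + lin β n k = X k
  hm : ∀ {A : Type} [CommRing A] [Algebra ℂ A] (s t : Fin 3 → A) (i : Fin 3),
    aeval (lin α s + lin β t) (m i) = s i
  hn : ∀ {A : Type} [CommRing A] [Algebra ℂ A] (s t : Fin 3 → A) (i : Fin 3),
    aeval (lin α s + lin β t) (n i) = t i

namespace Frame

variable (E : Frame)

theorem m0 (i : Fin 3) : E.m i ≠ 0 := by
  intro h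
  have := E.hm (A := ℂ) (fun _ => 1) 0 i
  rw [h, map_zero] at this
  exact zero_ne_one this

theorem n0 (i : Fin 3) : E.n i ≠ 0 := by
  intro h
  have := E.hn (A := ℂ) 0 (fun _ => 1) i
  rw [h, map_zero] at this
  exact zero_ne_one this

end Frame

/-- `F` vanishes on both planes of the frame -/
structure PlanePair (F : MvPolynomial (Fin 6) ℂ) extends Frame where
  hα : ∀ s : Fin 3 → ℂ, tri (tens F) (lin α s) (lin α s) (lin α s) = 0
  hβ : ∀ s : Fin 3 → ℂ, tri (tens F) (lin β s) (lin β s) (lin β s) = 0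

section main

variable {F : MvPolynomial (Fin 6) ℂ} (hF : IsSmoothCubicFourfold F) (P : PlanePair F)

/-- first coordinate vector of `ℙ² × ℙ²` -/
noncomputable def xi : Fin 3 → MvPolynomial (Fin 4) ℂ := ![1, X 0, X 1]
/-- second coordinate vector of `ℙ² × ℙ²` -/
noncomputable def eta : Fin 3 → MvPolynomial (Fin 4) ℂ := ![1, X 2, X 3]

/-- point of the first plane -/
noncomputable def pa : Fin 6 → MvPolynomial (Fin 4) ℂ := lin P.α xi
/-- point of the second plane -/
noncomputable def pb : Fin 6 → MvPolynomial (Fin 4) ℂ := lin P.β eta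
/-- first coefficient -/
noncomputable def cA : MvPolynomial (Fin 4) ℂ := tri (tens F) (pa P) (pa P) (pb P)
/-- second coefficient -/
noncomputable def cB : MvPolynomial (Fin 4) ℂ := tri (tens F) (pa P) (pb P) (pb P)
/-- third intersection point of the line -/
noncomputable def pz : Fin 6 → MvPolynomial (Fin 4) ℂ := cB P • pa P + (-cA P) • pb P

theorem tri_pz : tri (tens F) (pz P) (pz P) (pz P) = 0 := by
  unfold pz
  rw [tri_cube_comb (tens_sym F)]
  have h1 : tri (tens F) (pa P) (pa P) (pa P) = 0 := lin_iso P.hα _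
  have h2 : tri (tens F) (pb P) (pb P) (pb P) = 0 := lin_iso P.hβ _
  rw [h1, h2]
  show _ + 3 * cB P ^ 2 * -cA P * cA P + 3 * cB P * (-cA P) ^ 2 * cB P + _ = 0
  ring

/-- universal point of the first plane -/
noncomputable def qU : Fin 6 → MvPolynomial (Fin 6) ℂ := lin P.α P.m
/-- universal point of the second plane -/
noncomputable def qV : Fin 6 → MvPolynomial (Fin 6) ℂ := lin P.β P.n
/-- `A` -/
noncomputable def bA : MvPolynomial (Fin 6) ℂ := tri (tens F) (qU P) (qU P) (qV P)
/-- `B` -/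
noncomputable def bB : MvPolynomial (Fin 6) ℂ := tri (tens F) (qU P) (qV P) (qV P)

theorem qUV : qU P + qV P = X := funext P.hX

include hF in
theorem F_eq : F = 3 * (bA P + bB P) := by
  have h := eq_tri hF.1
  rw [← qUV P, tri_cube_add (tens_sym F)] at h
  have h1 : tri (tens F) (qU P) (qU P) (qU P) = 0 := lin_iso P.hα _
  have h2 : tri (tens F) (qV P) (qV P) (qV P) = 0 := lin_iso P.hβ _
  rw [h1, h2] at h
  conv_lhs => rw [h]
  show 0 + 3 * bA P + 3 * bB P + 0 = _
  ring

/-- evaluation of `A` at `s + t` -/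
theorem eval_bA (s t : Fin 3 → ℂ) :
    eval (lin P.α s + lin P.β t) (bA P) = tri (tens F) (lin P.α s) (lin P.α s) (lin P.β t) := by
  have h := map_tri (tens F) (aeval (lin P.α s + lin P.β t) : MvPolynomial (Fin 6) ℂ →ₐ[ℂ] ℂ)
    (qU P) (qU P) (qV P)
  have e1 : (fun k => (aeval (lin P.α s + lin P.β t) : MvPolynomial (Fin 6) ℂ →ₐ[ℂ] ℂ) (qU P k))
      = lin P.α s := by
    unfold qU; rw [map_lin]; simp only [P.hm]
  have e2 : (fun k => (aeval (lin P.α s + lin P.β t) : MvPolynomial (Fin 6) ℂ →ₐ[ℂ] ℂ) (qV P k))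
      = lin P.β t := by
    unfold qV; rw [map_lin]; simp only [P.hn]
  rw [e1, e2] at h
  exact h

theorem eval_bB (s t : Fin 3 → ℂ) :
    eval (lin P.α s + lin P.β t) (bB P) = tri (tens F) (lin P.α s) (lin P.β t) (lin P.β t) := by
  have h := map_tri (tens F) (aeval (lin P.α s + lin P.β t) : MvPolynomial (Fin 6) ℂ →ₐ[ℂ] ℂ)
    (qU P) (qV P) (qV P)
  have e1 : (fun k => (aeval (lin P.α s + lin P.β t) : MvPolynomial (Fin 6) ℂ →ₐ[ℂ] ℂ) (qU P k))
      = lin P.α s := by
    unfold qU; rw [map_lin]; simp only [P.hm]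
  have e2 : (fun k => (aeval (lin P.α s + lin P.β t) : MvPolynomial (Fin 6) ℂ →ₐ[ℂ] ℂ) (qV P k))
      = lin P.β t := by
    unfold qV; rw [map_lin]; simp only [P.hn]
  rw [e1, e2] at h
  exact h

/-- every point is a sum of points of the two planes -/
theorem point_eq (x : Fin 6 → ℂ) :
    x = lin P.α (fun i => eval x (P.m i)) + lin P.β (fun i => eval x (P.n i)) := by
  funext k
  have := congrArg (eval x) (P.hX k)
  rw [map_add, eval_X] at this
  rw [← this]
  simp [lin]

include hF in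
theorem bA_ne : bA P ≠ 0 := by
  intro h
  -- singular at a point of the first plane
  obtain ⟨y, hy⟩ := triS_smooth hF (lin P.α (fun _ => 1)) (by
    intro h0
    have := P.hm (A := ℂ) (fun _ => 1) 0 0
    rw [h0] at this
    have e : (lin P.β (0 : Fin 3 → ℂ)) = 0 := by funext k; simp [lin]
    have e' := P.hm (A := ℂ) 0 0 0
    have e2 : (lin P.α (0 : Fin 3 → ℂ)) = 0 := by funext k; simp [lin]
    rw [e2] at e'
    rw [e'] at this
    exact zero_ne_one this)
  apply hy
  rw [point_eq P y]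
  show tri (tens F) _ _ _ = 0
  rw [tri_add₃]
  have h1 := eval_bA P (fun _ => 1) (fun i => eval y (P.n i))
  rw [h, map_zero] at h1
  rw [← h1, add_zero]
  -- isotropy of the first plane
  have h2 : ∀ s t : Fin 3 → ℂ, tri (tens F) (lin P.α s) (lin P.α s) (lin P.α t) = 0 := by
    intro s t
    have hs : ∀ (a : ℂ), tri (tens F) ((1 : ℂ) • lin P.α s + a • lin P.α t)
        ((1 : ℂ) • lin P.α s + a • lin P.α t) ((1 : ℂ) • lin P.α s + a • lin P.α t) = 0 := by
      intro a
      have := P.hα (s + a • t)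
      have e : lin P.α (s + a • t) = (1 : ℂ) • lin P.α s + a • lin P.α t := by
        funext k
        simp [lin, Finset.sum_add_distrib, add_mul, Finset.mul_sum, mul_assoc]
      rwa [e] at this
    have k1 := hs 1
    have k2 := hs (-1)
    rw [tri_cube_comb (tens_sym F), P.hα, P.hα] at k1 k2
    linear_combination (1 / 6) * k1 - (1 / 6) * k2
  exact h2 _ _

include hF in
theorem bB_ne : bB P ≠ 0 := by
  intro h
  obtain ⟨y, hy⟩ := triS_smooth hF (lin P.β (fun _ => 1)) (by
    intro h0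
    have := P.hn (A := ℂ) 0 (fun _ => 1) 0
    rw [h0] at this
    have e' := P.hn (A := ℂ) 0 0 0
    have e2 : (lin P.β (0 : Fin 3 → ℂ)) = 0 := by funext k; simp [lin]
    rw [e2] at e'
    rw [e'] at this
    exact zero_ne_one this)
  apply hy
  rw [point_eq P y]
  show tri (tens F) _ _ _ = 0
  rw [tri_add₃]
  have h1 := eval_bB P (fun i => eval y (P.m i)) (fun _ => 1)
  rw [h, map_zero] at h1
  have e3 : tri (tens F) (lin P.β fun _ => 1) (lin P.β fun _ => 1)
      (lin P.α fun i => eval y (P.m i)) = 0 := by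
    rw [tri_comm₂₃ (tens_sym F), tri_comm₁₂ (tens_sym F), ← h1]
  rw [e3, zero_add]
  have h2 : ∀ s t : Fin 3 → ℂ, tri (tens F) (lin P.β s) (lin P.β s) (lin P.β t) = 0 := by
    intro s t
    have hs : ∀ (a : ℂ), tri (tens F) ((1 : ℂ) • lin P.β s + a • lin P.β t)
        ((1 : ℂ) • lin P.β s + a • lin P.β t) ((1 : ℂ) • lin P.β s + a • lin P.β t) = 0 := by
      intro a
      have := P.hβ (s + a • t)
      have e : lin P.β (s + a • t) = (1 : ℂ) • lin P.β s + a • lin P.β t := by
        funext k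
        simp [lin, Finset.sum_add_distrib, add_mul, Finset.mul_sum, mul_assoc]
      rwa [e] at this
    have k1 := hs 1
    have k2 := hs (-1)
    rw [tri_cube_comb (tens_sym F), P.hβ, P.hβ] at k1 k2
    linear_combination (1 / 6) * k1 - (1 / 6) * k2
  exact h2 _ _

include hF in
/-- `F` does not divide `B`. -/
theorem not_dvd_bB : ¬ F ∣ bB P := by
  rintro ⟨Q, hQ⟩
  have hAB : bA P * bB P ≠ 0 := mul_ne_zero (bA_ne hF P) (bB_ne hF P)
  obtain ⟨x, hx⟩ : ∃ x, eval x (bA P * bB P) ≠ 0 := by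
    by_contra hcon
    push Not at hcon
    exact hAB (MvPolynomial.funext fun x => by rw [hcon x, map_zero])
  rw [map_mul] at hx
  set s : Fin 3 → ℂ := fun i => eval x (P.m i)
  set t : Fin 3 → ℂ := fun i => eval x (P.n i)
  rw [point_eq P x, eval_bA, eval_bB] at hx
  set a := tri (tens F) (lin P.α s) (lin P.α s) (lin P.β t) with ha
  set b := tri (tens F) (lin P.α s) (lin P.β t) (lin P.β t) with hb
  -- the third point
  have e1 := eval_bB P (b • s) ((-a) • t)
  have e2 : eval (lin P.α (b • s) + lin P.β ((-a) • t)) F = 0 := by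
    rw [eval_eq_tri hF.1, lin_smul, lin_smul, tri_cube_comb (tens_sym F), P.hα, P.hβ, ← ha, ← hb]
    ring
  rw [hQ, map_mul, e2, zero_mul, lin_smul, lin_smul, tri_smul₁, tri_smul₂, tri_smul₃, ← hb] at e1
  have ha0 : a ≠ 0 := left_ne_zero_of_mul hx
  have hb0 : b ≠ 0 := right_ne_zero_of_mul hx
  have : b * (-a * (-a * b)) ≠ 0 := by
    simp [ha0, hb0]
  exact this e1.symm

include hF in
/-- The transfer principle: a form vanishing at the universal point is divisible by `F`. -/
theorem transfer {G : MvPolynomial (Fin 6) ℂ} {N : ℕ} (hG : G.IsHomogeneous N)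
    (h : aeval (pz P) G = 0) : F ∣ G := by
  -- the field of rational functions on affine six-space
  let L := FractionRing (MvPolynomial (Fin 6) ℂ)
  let j : MvPolynomial (Fin 6) ℂ →ₐ[ℂ] FractionRing (MvPolynomial (Fin 6) ℂ) :=
    IsScalarTower.toAlgHom ℂ _ _
  have hj : Function.Injective j := by
    have := IsFractionRing.injective (MvPolynomial (Fin 6) ℂ) (FractionRing (MvPolynomial (Fin 6) ℂ))
    exact this
  have hm0 : j (P.m 0) ≠ 0 := fun h0 => P.m0 0 (hj (by rw [h0, map_zero]))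
  have hn0 : j (P.n 0) ≠ 0 := fun h0 => P.n0 0 (hj (by rw [h0, map_zero]))
  let σ : MvPolynomial (Fin 4) ℂ →ₐ[ℂ] FractionRing (MvPolynomial (Fin 6) ℂ) :=
    aeval ![j (P.m 1) / j (P.m 0), j (P.m 2) / j (P.m 0), j (P.n 1) / j (P.n 0),
      j (P.n 2) / j (P.n 0)]
  have hσξ : (fun i => σ (xi i)) = (j (P.m 0))⁻¹ • fun i => j (P.m i) := by
    funext i
    fin_cases i
    · simp [xi, hm0]
    · simp [xi, σ, div_eq_inv_mul]
    · simp [xi, σ, div_eq_inv_mul]
  have hση : (fun i => σ (eta i)) = (j (P.n 0))⁻¹ • fun i => j (P.n i) := by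
    funext i
    fin_cases i
    · simp [eta, hn0]
    · simp [eta, σ, div_eq_inv_mul]
    · simp [eta, σ, div_eq_inv_mul]
  have hU : (fun k => j (qU P k)) = lin P.α fun i => j (P.m i) := map_lin _ _ _
  have hV : (fun k => j (qV P k)) = lin P.β fun i => j (P.n i) := map_lin _ _ _
  have ha : (fun k => σ (pa P k)) = (j (P.m 0))⁻¹ • fun k => j (qU P k) := by
    unfold pa; rw [map_lin, hσξ, lin_smul, hU]
  have hb : (fun k => σ (pb P k)) = (j (P.n 0))⁻¹ • fun k => j (qV P k) := by
    unfold pb; rw [map_lin, hση, lin_smul, hV]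
  have hA : σ (cA P) = (j (P.m 0))⁻¹ ^ 2 * (j (P.n 0))⁻¹ * j (bA P) := by
    unfold cA bA
    rw [map_tri, ha, hb, tri_smul₁, tri_smul₂, tri_smul₃, map_tri]; ring
  have hB : σ (cB P) = (j (P.m 0))⁻¹ * (j (P.n 0))⁻¹ ^ 2 * j (bB P) := by
    unfold cB bB
    rw [map_tri, ha, hb, tri_smul₁, tri_smul₂, tri_smul₃, map_tri]; ring
  have hz : (fun k => σ (pz P k)) = ((j (P.m 0))⁻¹ ^ 2 * (j (P.n 0))⁻¹ ^ 2) •
      fun k => j ((bB P • qU P + (-bA P) • qV P) k) := by
    funext k
    have h1 := congrFun ha k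
    have h2 := congrFun hb k
    simp only [pz, Pi.add_apply, Pi.smul_apply, smul_eq_mul, map_add, map_mul, map_neg, hA, hB]
      at h1 h2 ⊢
    rw [h1, h2]
    ring
  have h1 : aeval (fun k => σ (pz P k)) G = 0 := by
    rw [← alg_aeval σ (pz P) G, h, map_zero]
  rw [hz, aeval_smul_hom hG] at h1
  have h2 : aeval (fun k => j ((bB P • qU P + (-bA P) • qV P) k)) G = 0 := by
    rcases mul_eq_zero.1 h1 with h3 | h3
    · exact absurd h3 (pow_ne_zero _ (mul_ne_zero (pow_ne_zero _ (inv_ne_zero hm0))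
        (pow_ne_zero _ (inv_ne_zero hn0))))
    · exact h3
  have h3 : aeval (bB P • qU P + (-bA P) • qV P) G = 0 := by
    apply hj
    rw [map_zero, alg_aeval, h2]
  -- modulo `F`
  let q : MvPolynomial (Fin 6) ℂ →ₐ[ℂ] MvPolynomial (Fin 6) ℂ ⧸ Ideal.span {F} :=
    Ideal.Quotient.mkₐ ℂ _
  have hq : ∀ H, q H = 0 ↔ F ∣ H := by
    intro H
    show Ideal.Quotient.mk _ H = 0 ↔ _
    rw [Ideal.Quotient.eq_zero_iff_mem, Ideal.mem_span_singleton]
  have hAB : q (-bA P) = q (bB P) := by
    have h4 : q (3 * (bA P + bB P)) = 0 := (hq _).2 (Dvd.intro 1 (by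
      rw [mul_one]; exact F_eq hF P))
    rw [map_mul, map_add] at h4
    have h5 : q (C (1 / 3 : ℂ)) * (q 3 * (q (bA P) + q (bB P))) = 0 := by rw [h4, mul_zero]
    rw [← mul_assoc, ← map_mul] at h5
    have h6 : (C (1 / 3 : ℂ) : MvPolynomial (Fin 6) ℂ) * 3 = 1 := by
      have : (3 : MvPolynomial (Fin 6) ℂ) = C (3 : ℂ) := (map_ofNat C 3).symm
      rw [this, ← C_mul]; norm_num
    rw [h6, map_one, one_mul] at h5
    rw [map_neg]
    linear_combination -h5
  have h4 : aeval (fun k => q ((bB P • qU P + (-bA P) • qV P) k)) G = 0 := by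
    rw [← alg_aeval q _ G, h3, map_zero]
  have h5 : (fun k => q ((bB P • qU P + (-bA P) • qV P) k)) = q (bB P) • fun k => q (X k) := by
    funext k
    have := P.hX k
    simp only [Pi.add_apply, Pi.smul_apply, smul_eq_mul, map_add, map_mul, hAB]
    rw [← this, map_add]
    show _ = q (bB P) * (q (lin P.α P.m k) + q (lin P.β P.n k))
    rw [mul_add]
    rfl
  rw [h5, aeval_smul_hom hG] at h4
  have h6 : aeval (fun k => q (X k)) G = q G := by
    have : (aeval (fun k => q (X k)) : MvPolynomial (Fin 6) ℂ →ₐ[ℂ] _) = q := by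
      ext k; simp
    rw [this]
  rw [h6, ← map_pow, ← map_mul, hq] at h4
  rcases (smooth_prime hF).dvd_or_dvd h4 with h7 | h7
  · exact absurd ((smooth_prime hF).dvd_of_dvd_pow h7) (not_dvd_bB hF P)
  · exact h7

end main

end Vale.Agent.P287.H664
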